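import Vale.Agent.P159.Helicity

/-!
The integer heights dual to the wired block of the XY model.
-/

open MeasureTheory Filter Topology

namespace Vale.Agent.P159.R2.H254

/-- the modified Bessel function `I_n(b)`, Fourier coefficient of `exp (b cos x)` -/
noncomputable def bes (b : ℝ) (n : ℤ) : ℝ :=
  (2 * Real.pi)⁻¹ * ∫ x in (0 : ℝ)..(2 * Real.pi), Real.exp (b * Real.cos x) * Real.cos (n * x)

/-- heights on the `(N+1) × (N+1)` faces `Fin (N+1) × Fin (N+1)`, normalised by `h (0,0) = 0` -/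
abbrev Hgt (N : ℕ) : Type := {h : Fin (N + 1) × Fin (N + 1) → ℤ // h (0, 0) = 0}

/-- weight of a height function: the product of `I_{h(f)-h(g)}(b)` over neighbouring faces -/
noncomputable def hWt (N : ℕ) (b : ℝ) (h : Fin (N + 1) × Fin (N + 1) → ℤ) : ℝ :=
  (∏ i : Fin N, ∏ j : Fin (N + 1), bes b (h (i.succ, j) - h (i.castSucc, j))) *
    ∏ i : Fin (N + 1), ∏ j : Fin N, bes b (h (i, j.succ) - h (i, j.castSucc))

/-- mean of `F` with respect to the probability weights proportional to `hWt` -/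
noncomputable def hMean (N : ℕ) (b : ℝ) (F : (Fin (N + 1) × Fin (N + 1) → ℤ) → ℂ) : ℂ :=
  (∑' h : Hgt N, (hWt N b h.1 : ℂ) * F h.1) / ((∑' h : Hgt N, hWt N b h.1 : ℝ) : ℂ)

/-- coordinate of the centre of the faces number `i`; the faces fill the unit square -/
noncomputable def ctr (N : ℕ) (i : Fin (N + 1)) : ℝ := ((i : ℝ) + 1 / 2) / (N + 1)

/-- the sum over neighbouring faces of the product of the differences of `w` and of `h` -/
noncomputable def dform (N : ℕ) (w : ℝ → ℝ → ℝ) (h : Fin (N + 1) × Fin (N + 1) → ℤ) : ℝ :=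
  (∑ i : Fin N, ∑ j : Fin (N + 1), (w (ctr N i.succ) (ctr N j) - w (ctr N i.castSucc) (ctr N j)) *
      ((h (i.succ, j) : ℝ) - h (i.castSucc, j))) +
    ∑ i : Fin (N + 1), ∑ j : Fin N, (w (ctr N i) (ctr N j.succ) - w (ctr N i) (ctr N j.castSucc)) *
      ((h (i, j.succ) : ℝ) - h (i, j.castSucc))

/-- the Fourier mode `(m, n)` of the heights: the spatial mean of
`h cos (m π x) cos (n π y)` -/
noncomputable def fmode (N : ℕ) (m n : ℕ) (h : Fin (N + 1) × Fin (N + 1) → ℤ) : ℝ :=
  (∑ i : Fin (N + 1), ∑ j : Fin (N + 1),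
    (h (i, j) : ℝ) * (Real.cos (m * Real.pi * ctr N i) * Real.cos (n * Real.pi * ctr N j))) /
      ((N : ℝ) + 1) ^ 2

/-- the mean of `cos (m π x) ^ 2` on the unit interval -/
noncomputable def cnrm (m : ℕ) : ℝ := if m = 0 then 1 else 1 / 2

end Vale.Agent.P159.R2.H254
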