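import Vale.Agent.P159.R2.H254.Laurent
import Vale.Agent.P159.R2.H254.HDefs
import Vale.Agent.P159.H950.GDefs

/-!
Currents and heights on the square block of side `N + 1`.
-/

open MeasureTheory Filter Topology

namespace Vale.Agent.P159.R2.H254

open Vale.Agent.P159 Vale.Agent.P159.H353

/-- faces -/
abbrev Fa (N : ℕ) : Type := Fin (N + 1) × Fin (N + 1)

/-- bonds with an inner end point: vertical bonds `(i+1,j) → (i+1,j+1)`, horizontal bonds
`(i,j+1) → (i+1,j+1)` -/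
abbrev Eb (N : ℕ) : Type := (Fin N × Fin (N + 1)) ⊕ (Fin (N + 1) × Fin N)

/-- initial point of a bond -/
def bst {N : ℕ} : Eb N → ℤ × ℤ
  | Sum.inl p => ((p.1.1 : ℤ) + 1, (p.2.1 : ℤ))
  | Sum.inr p => ((p.1.1 : ℤ), (p.2.1 : ℤ) + 1)

/-- end point of a bond -/
def ben {N : ℕ} : Eb N → ℤ × ℤ
  | Sum.inl p => ((p.1.1 : ℤ) + 1, (p.2.1 : ℤ) + 1)
  | Sum.inr p => ((p.1.1 : ℤ) + 1, (p.2.1 : ℤ) + 1)

/-- the face to the left of a bond -/
def blf {N : ℕ} : Eb N → Fa N
  | Sum.inl p => (p.1.castSucc, p.2)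
  | Sum.inr p => (p.1, p.2.succ)

/-- the face to the right of a bond -/
def brt {N : ℕ} : Eb N → Fa N
  | Sum.inl p => (p.1.succ, p.2)
  | Sum.inr p => (p.1, p.2.castSucc)

/-- the current of the heights `h` through a bond -/
def bcur {N : ℕ} (h : Fa N → ℤ) (e : Eb N) : ℤ := h (blf e) - h (brt e)

/-- the difference of the spins along a bond -/
noncomputable def bth {N : ℕ} (θ : inner (N + 1) → T) (e : Eb N) : T :=
  ext θ (bst e) - ext θ (ben e)

/-- divergence of a current at a site -/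
def bdv {N : ℕ} (n : Eb N → ℤ) (v : ℤ × ℤ) : ℤ :=
  ∑ e, ((if bst e = v then n e else 0) + (if ben e = v then -n e else 0))

lemma prod_fourier_bth {N : ℕ} (θ : inner (N + 1) → T) (n : Eb N → ℤ) :
    ∏ e, (fourier (n e) (bth θ e) : ℂ) =
      ∏ v : inner (N + 1), (fourier (bdv n v.1) (θ v) : ℂ) := by
  have h1 : ∀ e, (fourier (n e) (bth θ e) : ℂ) = ∏ v : inner (N + 1),
      ((fourier ((if bst e = v.1 then n e else 0) + (if ben e = v.1 then -n e else 0)) (θ v)) :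
        ℂ) := by
    intro e
    unfold bth
    rw [sub_eq_add_neg, fourier_add_arg, fourier_neg_arg, fourier_ext, fourier_ext,
      ← Finset.prod_mul_distrib]
    refine Finset.prod_congr rfl fun v _ => ?_
    rw [fourier_add]
  simp only [h1]
  rw [Finset.prod_comm]
  refine Finset.prod_congr rfl fun v _ => ?_
  rw [fourier_sum_ix]
  rfl

/-- the divergence at an inner site -/
lemma bdv_eq {N : ℕ} (n : Eb N → ℤ) (i j : ℕ) (hi : i + 1 < N + 1) (hj : j + 1 < N + 1) :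
    bdv n ((i : ℤ) + 1, (j : ℤ) + 1) =
      (n (Sum.inl (⟨i, by omega⟩, ⟨j + 1, hj⟩)) -
        n (Sum.inl (⟨i, by omega⟩, ⟨j, by omega⟩))) +
      (n (Sum.inr (⟨i + 1, hi⟩, ⟨j, by omega⟩)) -
        n (Sum.inr (⟨i, by omega⟩, ⟨j, by omega⟩))) := by
  unfold bdv
  rw [Finset.sum_add_distrib, Fintype.sum_sum_type, Fintype.sum_sum_type]
  rw [sum_pick (fun p : Fin N × Fin (N + 1) => bst (Sum.inl p : Eb N)) _
    (⟨i, by omega⟩, ⟨j + 1, hj⟩) (fun p => n (Sum.inl p)) _ _]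
  rw [sum_pick (fun p : Fin N × Fin (N + 1) => ben (Sum.inl p : Eb N)) _
    (⟨i, by omega⟩, ⟨j, by omega⟩) (fun p => -n (Sum.inl p)) _ _]
  rw [sum_pick (fun p : Fin (N + 1) × Fin N => bst (Sum.inr p : Eb N)) _
    (⟨i + 1, hi⟩, ⟨j, by omega⟩) (fun p => n (Sum.inr p)) _ _]
  rw [sum_pick (fun p : Fin (N + 1) × Fin N => ben (Sum.inr p : Eb N)) _
    (⟨i, by omega⟩, ⟨j, by omega⟩) (fun p => -n (Sum.inr p)) _ _]
  · ring
  all_goals first
    | (rintro ⟨a, b⟩ ⟨c, d⟩ h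
       simp only [bst, ben, Prod.mk.injEq, add_left_inj, Nat.cast_inj] at h
       ext
       · exact h.1
       · exact h.2)
    | (simp [bst, ben]; done)

lemma bcur_add_const {N : ℕ} (h : Fa N → ℤ) (k : ℤ) : bcur (fun x => h x + k) = bcur h := by
  funext e
  unfold bcur
  ring

lemma const_of_bcur {N : ℕ} (d : Fa N → ℤ) (hd : ∀ e, bcur d e = 0) (x : Fa N) :
    d x = d (0, 0) := by
  have hV : ∀ (i j : ℕ) (hi : i + 1 < N + 1) (hj : j < N + 1),
      d (⟨i + 1, hi⟩, ⟨j, hj⟩) = d (⟨i, by omega⟩, ⟨j, hj⟩) := by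
    intro i j hi hj
    have := hd (Sum.inl (⟨i, by omega⟩, ⟨j, hj⟩))
    unfold bcur at this
    simp only [blf, brt, Fin.castSucc_mk, Fin.succ_mk] at this
    omega
  have hH : ∀ (i j : ℕ) (hi : i < N + 1) (hj : j + 1 < N + 1),
      d (⟨i, hi⟩, ⟨j + 1, hj⟩) = d (⟨i, hi⟩, ⟨j, by omega⟩) := by
    intro i j hi hj
    have := hd (Sum.inr (⟨i, hi⟩, ⟨j, by omega⟩))
    unfold bcur at this
    simp only [blf, brt, Fin.castSucc_mk, Fin.succ_mk] at this
    omega
  have hL0 : ∀ (i : ℕ) (hi : i < N + 1), d (⟨i, hi⟩, ⟨0, by omega⟩) = d (0, 0) := by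
    intro i
    induction i with
    | zero => intro hi; rfl
    | succ i ih =>
      intro hi
      rw [hV i 0 hi (by omega), ih]
  have hL : ∀ (j : ℕ) (i : ℕ) (hi : i < N + 1) (hj : j < N + 1),
      d (⟨i, hi⟩, ⟨j, hj⟩) = d (0, 0) := by
    intro j
    induction j with
    | zero => intro i hi hj; exact hL0 i hi
    | succ j ih =>
      intro i hi hj
      rw [hH i j hi hj, ih]
  obtain ⟨⟨i, hi⟩, ⟨j, hj⟩⟩ := x
  exact hL j i hi hj

lemma bcur_inj {N : ℕ} : Function.Injective fun h : Hgt N => bcur h.1 := by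
  intro h k hk
  have hd : ∀ e, bcur (fun x => h.1 x - k.1 x) e = 0 := by
    intro e
    have := congrFun hk e
    simp only [bcur] at this ⊢
    omega
  have hv := h.2
  have kv := k.2
  apply Subtype.ext
  funext x
  have hx : h.1 x - k.1 x = h.1 (0, 0) - k.1 (0, 0) := const_of_bcur _ hd x
  omega

lemma bdv_cur {N : ℕ} (h : Fa N → ℤ) (v : inner (N + 1)) : bdv (bcur h) v.1 = 0 := by
  obtain ⟨i, j, hi, hj, hv⟩ := (mem_inner_iff v.1).1 v.2
  rw [hv, bdv_eq _ i j hi hj]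
  unfold bcur
  simp only [blf, brt, Fin.castSucc_mk, Fin.succ_mk]
  ring

lemma bcur_surj {N : ℕ} (n : Eb N → ℤ) (hn : ∀ w : inner (N + 1), bdv n w.1 = 0) :
    ∃ h : Hgt N, bcur h.1 = n := by
  set V : ℕ → ℕ → ℤ := nat2 fun p : Fin N × Fin (N + 1) => n (Sum.inl p) with hV
  set Z : ℕ → ℕ → ℤ := nat2 fun p : Fin (N + 1) × Fin N => n (Sum.inr p) with hZ
  have hdiv : ∀ i j : ℕ, i + 1 < N + 1 → j + 1 < N + 1 →
      (V i (j + 1) - V i j) + (Z (i + 1) j - Z i j) = 0 := by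
    intro i j hi hj
    have hm : ((i : ℤ) + 1, (j : ℤ) + 1) ∈ inner (N + 1) :=
      (mem_inner_iff _).2 ⟨i, j, hi, hj, rfl⟩
    have h := hn ⟨_, hm⟩
    rw [bdv_eq n i j hi hj] at h
    rw [hV, hZ, nat2_eq _ i (j + 1) (by omega) hj, nat2_eq _ i j (by omega) (by omega),
      nat2_eq _ (i + 1) j hi (by omega), nat2_eq _ i j (by omega) (by omega)]
    exact h
  set L : ℕ → ℕ → ℤ := fun i j => (∑ a ∈ Finset.range i, (-V a 0)) +
    ∑ c ∈ Finset.range j, Z i c with hL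
  have hy : ∀ i j, L i (j + 1) - L i j = Z i j := by
    intro i j
    simp only [hL]
    rw [Finset.sum_range_succ]
    ring
  have hx : ∀ j i, i + 1 < N + 1 → j < N + 1 → L (i + 1) j - L i j = -V i j := by
    intro j
    induction j with
    | zero =>
      intro i hi hj
      simp only [hL, Finset.range_zero, Finset.sum_empty]
      rw [Finset.sum_range_succ]
      ring
    | succ j ih =>
      intro i hi hj
      have h1 := ih i hi (by omega)
      have h2 := hy i j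
      have h3 := hy (i + 1) j
      have h4 := hdiv i j hi hj
      omega
  set h0 : Fa N → ℤ := fun x => L x.1.1 x.2.1 with hh0
  have hc : bcur h0 = n := by
    funext e
    rcases e with ⟨⟨i, hi⟩, ⟨j, hj⟩⟩ | ⟨⟨i, hi⟩, ⟨j, hj⟩⟩
    · have : V i j = n (Sum.inl (⟨i, hi⟩, ⟨j, hj⟩)) := nat2_eq _ _ _ hi hj
      have h1 := hx j i (by omega) hj
      simp only [bcur, blf, brt, hh0, Fin.castSucc_mk, Fin.succ_mk]
      rw [← this]
      omega
    · have : Z i j = n (Sum.inr (⟨i, hi⟩, ⟨j, hj⟩)) := nat2_eq _ _ _ hi hj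
      have h1 := hy i j
      simp only [bcur, blf, brt, hh0, Fin.castSucc_mk, Fin.succ_mk]
      rw [← this]
      omega
  refine ⟨⟨fun x => h0 x + -h0 (0, 0), by simp⟩, ?_⟩
  rw [bcur_add_const]
  exact hc

end Vale.Agent.P159.R2.H254
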