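import Vale.Agent.P159.R2.H254.Cur

/-!
Expansion of the partition function in a complex gauge field in heights.
-/

open MeasureTheory Filter Topology

namespace Vale.Agent.P159.R2.H254

open Vale.Agent.P159 Vale.Agent.P159.H353

lemma sinT_eq (x : T) :
    (sinT x : ℂ) = ((fourier 1 x : ℂ) - (fourier 1 x : ℂ)⁻¹) / (2 * Complex.I) := by
  induction x using QuotientAddGroup.induction_on with
  | H y =>
    have h1 : sinT ((y : ℝ) : T) = Real.sin y := Real.Angle.sin_coe y
    have h2 : (fourier 1 ((y : ℝ) : T) : ℂ) = Complex.exp (y * Complex.I) := by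
      rw [fourier_coe_apply]
      congr 1
      have : (Real.pi : ℂ) ≠ 0 := by exact_mod_cast Real.pi_ne_zero
      push_cast
      field_simp
    have h3 : (QuotientAddGroup.mk y : T) = ((y : ℝ) : T) := rfl
    rw [h3, h1, h2, ← Complex.exp_neg, Complex.ofReal_sin, Complex.sin]
    have hI : Complex.I ≠ 0 := Complex.I_ne_zero
    have e : (-(y : ℂ) * Complex.I) = -(↑y * Complex.I) := by ring
    rw [e]
    field_simp
    rw [Complex.I_sq]
    ring

/-- `exp (i (x + w))` -/
noncomputable def zz (x : T) (w : ℂ) : ℂ := (fourier 1 x : ℂ) * Complex.exp (w * Complex.I)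

lemma zz_ne (x : T) (w : ℂ) : zz x w ≠ 0 := mul_ne_zero (fourier_one_ne x) (Complex.exp_ne_zero _)

lemma cosC_zz (x : T) (w : ℂ) : (zz x w + (zz x w)⁻¹) / 2 = cosC x w := by
  have h0 := fourier_one_ne x
  unfold cosC zz
  rw [cosT_eq, sinT_eq, Complex.cos, Complex.sin, mul_inv, ← Complex.exp_neg]
  have hI : Complex.I ≠ 0 := Complex.I_ne_zero
  have e : (-w * Complex.I) = -(w * Complex.I) := by ring
  rw [e]
  set A := Complex.exp (w * Complex.I)
  set B := Complex.exp (-(w * Complex.I))
  field_simp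
  ring_nf

lemma zz_zpow (x : T) (w : ℂ) (n : ℤ) :
    zz x w ^ n = (fourier n x : ℂ) * Complex.exp (n * (w * Complex.I)) := by
  unfold zz
  rw [mul_zpow, ← fourier_zpow, Complex.exp_int_mul]

/-- series of the bond weight -/
lemma hasSum_cosC {b : ℝ} (hb : 0 ≤ b) (x : T) (w : ℂ) :
    HasSum (fun n : ℤ => (wI b n : ℂ) * ((fourier n x : ℂ) * Complex.exp (n * (w * Complex.I))))
      (Complex.exp (b * cosC x w)) := by
  have h := laurent hb (zz_ne x w)
  rw [cosC_zz] at h
  exact hs_congr h fun n => by rw [zz_zpow]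

/-- bound of the terms -/
noncomputable def mj (b : ℝ) (w : ℂ) (n : ℤ) : ℝ := wI b n * ‖Complex.exp (w * Complex.I)‖ ^ n

lemma summable_mj {b : ℝ} (hb : 0 ≤ b) (w : ℂ) : Summable (mj b w) := by
  have hz : ((‖Complex.exp (w * Complex.I)‖ : ℝ) : ℂ) ≠ 0 := by
    rw [Complex.ofReal_ne_zero]
    exact (norm_pos_iff.2 (Complex.exp_ne_zero _)).ne'
  have h := (laurent hb hz).summable
  have h2 := Complex.hasSum_re h.hasSum
  refine h2.summable.congr fun n => ?_
  rw [← Complex.ofReal_zpow, ← Complex.ofReal_mul, Complex.ofReal_re]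
  rfl

lemma mj_nonneg {b : ℝ} (hb : 0 ≤ b) (w : ℂ) (n : ℤ) : 0 ≤ mj b w n :=
  mul_nonneg (wI_nonneg hb n) (zpow_nonneg (norm_nonneg _) _)

lemma norm_term {b : ℝ} (hb : 0 ≤ b) (x : T) (w : ℂ) (n : ℤ) :
    ‖(wI b n : ℂ) * ((fourier n x : ℂ) * Complex.exp (n * (w * Complex.I)))‖ = mj b w n := by
  rw [norm_mul, norm_mul, fourier_norm_one, one_mul, Complex.exp_int_mul, norm_zpow,
    Complex.norm_real, Real.norm_eq_abs, abs_of_nonneg (wI_nonneg hb n)]
  rfl

/-- partition function with complex fields on the bonds with an inner end point -/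
noncomputable def ZC (N : ℕ) (b : ℝ) (u : Eb N → ℂ) : ℂ :=
  ∫ θ : inner (N + 1) → T, ∏ e, Complex.exp (b * cosC (bth θ e) (u e)) ∂torusHaar (inner (N + 1))

lemma bth_cont {N : ℕ} (e : Eb N) : Continuous fun θ : inner (N + 1) → T => bth θ e :=
  (ext_cont _).sub (ext_cont _)

/-- the expansion in currents -/
theorem ZC_currents {N : ℕ} {b : ℝ} (hb : 0 ≤ b) (u : Eb N → ℂ) :
    HasSum (fun n : Eb N → ℤ => if ∀ v : inner (N + 1), bdv n v.1 = 0 then
      ∏ e, ((wI b (n e) : ℂ) * Complex.exp (n e * (u e * Complex.I))) else 0) (ZC N b u) := by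
  have hps : ∀ θ : inner (N + 1) → T, ∏ e, Complex.exp (b * cosC (bth θ e) (u e)) =
      ∑' n : Eb N → ℤ, ∏ e, ((wI b (n e) : ℂ) *
        ((fourier (n e) (bth θ e) : ℂ) * Complex.exp (n e * (u e * Complex.I)))) := by
    intro θ
    have h := (prod_tsum_all ℤ (Eb N) (fun e n => (wI b n : ℂ) *
      ((fourier n (bth θ e) : ℂ) * Complex.exp (n * (u e * Complex.I)))) fun e =>
      (summable_mj hb (u e)).congr fun n => (norm_term hb _ _ n).symm).2
    rw [h]
    refine Finset.prod_congr rfl fun e _ => ?_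
    exact ((hasSum_cosC hb _ _).tsum_eq).symm
  have h2 : ZC N b u = ∫ θ : inner (N + 1) → T, ∑' n : Eb N → ℤ,
      ∏ e, ((wI b (n e) : ℂ) * ((fourier (n e) (bth θ e) : ℂ) *
        Complex.exp (n e * (u e * Complex.I)))) ∂torusHaar (inner (N + 1)) := by
    unfold ZC
    exact integral_congr_ae (Eventually.of_forall fun θ => hps θ)
  have hcont : ∀ n : Eb N → ℤ, Continuous fun θ : inner (N + 1) → T =>
      ∏ e, ((wI b (n e) : ℂ) * ((fourier (n e) (bth θ e) : ℂ) *
        Complex.exp (n e * (u e * Complex.I)))) := by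
    intro n
    refine continuous_finsetProd _ fun e _ => ?_
    exact continuous_const.mul (((fourier (n e)).continuous.comp (bth_cont e)).mul
      continuous_const)
  have hnorm : ∀ (n : Eb N → ℤ) (θ : inner (N + 1) → T),
      ‖∏ e, ((wI b (n e) : ℂ) * ((fourier (n e) (bth θ e) : ℂ) *
        Complex.exp (n e * (u e * Complex.I))))‖ = ∏ e, mj b (u e) (n e) := by
    intro n θ
    rw [norm_prod]
    exact Finset.prod_congr rfl fun e _ => norm_term hb _ _ _
  haveI : IsProbabilityMeasure (torusHaar (inner (N + 1))) := by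
    unfold torusHaar; infer_instance
  have hint : ∀ n : Eb N → ℤ, ∫ θ : inner (N + 1) → T,
      ∏ e, ((wI b (n e) : ℂ) * ((fourier (n e) (bth θ e) : ℂ) *
        Complex.exp (n e * (u e * Complex.I)))) ∂torusHaar (inner (N + 1)) =
      if ∀ v : inner (N + 1), bdv n v.1 = 0 then
      ∏ e, ((wI b (n e) : ℂ) * Complex.exp (n e * (u e * Complex.I))) else 0 := by
    intro n
    have e1 : ∀ θ : inner (N + 1) → T,
        ∏ e, ((wI b (n e) : ℂ) * ((fourier (n e) (bth θ e) : ℂ) *
          Complex.exp (n e * (u e * Complex.I)))) =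
        (∏ e, ((wI b (n e) : ℂ) * Complex.exp (n e * (u e * Complex.I)))) *
          ∏ v : inner (N + 1), (fourier (bdv n v.1) (θ v) : ℂ) := by
      intro θ
      rw [← prod_fourier_bth, ← Finset.prod_mul_distrib]
      refine Finset.prod_congr rfl fun e _ => ?_
      ring
    simp only [e1]
    rw [integral_const_mul, integral_prod_fourier]
    split_ifs <;> simp
  have hsum : Summable fun n : Eb N → ℤ => ∏ e, mj b (u e) (n e) := by
    have h := (prod_tsum_all ℤ (Eb N) (fun e n => (mj b (u e) n : ℂ)) fun e =>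
      (summable_mj hb (u e)).congr fun n => by
        rw [Complex.norm_real, Real.norm_eq_abs, abs_of_nonneg (mj_nonneg hb _ _)]).1
    refine h.congr fun n => ?_
    rw [norm_prod]
    refine Finset.prod_congr rfl fun e _ => ?_
    rw [Complex.norm_real, Real.norm_eq_abs, abs_of_nonneg (mj_nonneg hb _ _)]
  have := hasSum_integral_of_summable_integral_norm (μ := torusHaar (inner (N + 1)))
    (F := fun (n : Eb N → ℤ) (θ : inner (N + 1) → T) =>
      ∏ e, ((wI b (n e) : ℂ) * ((fourier (n e) (bth θ e) : ℂ) *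
        Complex.exp (n e * (u e * Complex.I)))))
    (fun n => ((hcont n).integrable_of_hasCompactSupport
        (HasCompactSupport.of_compactSpace _))) ?_
  · rw [h2]
    simp only [hint] at this
    exact this
  · simp only [hnorm]
    refine hsum.congr fun n => ?_
    simp

/-- the expansion in heights -/
theorem ZC_heights {N : ℕ} {b : ℝ} (hb : 0 ≤ b) (u : Eb N → ℂ) :
    HasSum (fun h : Hgt N => ((∏ e, wI b (bcur h.1 e) : ℝ) : ℂ) *
      Complex.exp (Complex.I * ∑ e, u e * (bcur h.1 e : ℂ))) (ZC N b u) := by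
  have h := ZC_currents hb u
  have h2 := (bcur_inj.hasSum_iff (f := fun n : Eb N → ℤ =>
      if ∀ v : inner (N + 1), bdv n v.1 = 0 then
      ∏ e, ((wI b (n e) : ℂ) * Complex.exp (n e * (u e * Complex.I))) else 0)
      (a := ZC N b u) ?_).2 h
  · refine hs_congr h2 fun k => ?_
    simp only [Function.comp]
    rw [if_pos (fun w => bdv_cur k.1 w), Finset.prod_mul_distrib, ← Complex.exp_sum]
    push_cast
    congr 2
    rw [Finset.mul_sum]
    exact Finset.sum_congr rfl fun e _ => by ring
  · intro n hn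
    rw [if_neg]
    intro hw
    exact hn (bcur_surj n hw)

end Vale.Agent.P159.R2.H254
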