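import Vale.Agent.P159.R2.H254.Modes2
import Vale.Agent.P159.H170.Final

/-!
The Gaussian limit of the XY model: final form.
-/

open MeasureTheory Filter Topology

namespace Vale.Agent.P159.R2.H254

open Vale.Agent.P159 Vale.Agent.P159.H353 Vale.Agent.P159.H950

lemma bes_pos {b : ℝ} (hb : 0 < b) (n : ℤ) : 0 < bes b n := by
  rw [bes_eq hb.le, wI_eq]
  have h1 : 0 < aw b n.natAbs n := by
    unfold aw cb
    have : (2 * n.natAbs).choose (n.natAbs + n.natAbs) = 1 := by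
      rw [← two_mul, Nat.choose_self]
    rw [this]
    positivity
  have h2 : 0 < ∑' k : ℕ, aw b k n :=
    (summable_aw_col hb.le n).tsum_pos (fun k => aw_nonneg hb.le k n) _ h1
  positivity

lemma hWt_pos {N : ℕ} {b : ℝ} (hb : 0 < b) (h : Fa N → ℤ) : 0 < hWt N b h := by
  unfold hWt
  have := fun n => bes_pos hb n
  exact mul_pos (Finset.prod_pos fun i _ => Finset.prod_pos fun j _ => this _)
    (Finset.prod_pos fun i _ => Finset.prod_pos fun j _ => this _)

lemma summable_hWt (N : ℕ) {b : ℝ} (hb : 0 < b) : Summable fun h : Hgt N => hWt N b h.1 := by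
  have h := (ZC_heights (N := N) hb.le 0).summable
  have h2 := Complex.hasSum_re h.hasSum
  refine h2.summable.congr fun k => ?_
  rw [hWt_eq hb.le]
  simp only [Pi.zero_apply, zero_mul, Finset.sum_const_zero, mul_zero, Complex.exp_zero, mul_one,
    Complex.ofReal_re]

lemma tsum_hWt_pos (N : ℕ) {b : ℝ} (hb : 0 < b) : 0 < ∑' h : Hgt N, hWt N b h.1 :=
  (summable_hWt N hb).tsum_pos (fun h => (hWt_pos hb h.1).le) ⟨0, rfl⟩ (hWt_pos hb _)

/-! ### Boundary spins -/

/-- second partial derivative -/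
noncomputable def pxx (w : ℝ → ℝ → ℝ) (x y : ℝ) : ℝ :=
  fderiv ℝ (fderiv ℝ (fun p : ℝ × ℝ => w p.1 p.2)) (x, y) (1, 0) (1, 0)

/-- second partial derivative -/
noncomputable def pyy (w : ℝ → ℝ → ℝ) (x y : ℝ) : ℝ :=
  fderiv ℝ (fderiv ℝ (fun p : ℝ × ℝ => w p.1 p.2)) (x, y) (0, 1) (0, 1)

section

variable {w : ℝ → ℝ → ℝ} (hw : ContDiff ℝ 2 fun p : ℝ × ℝ => w p.1 p.2)

include hw

lemma has_pxx (x y : ℝ) : HasDerivAt (fun s => px w s y) (pxx w x y) x := by
  have h1 : HasFDerivAt (fderiv ℝ fun p : ℝ × ℝ => w p.1 p.2) _ (x, y) :=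
    ((fd1 hw).differentiable (by norm_num) (x, y)).hasFDerivAt
  have h2 := h1.comp_hasDerivAt x (line_x x y)
  have h3 := h2.clm_apply (hasDerivAt_const x ((1 : ℝ), (0 : ℝ)))
  exact h3.congr_deriv (by simp [pxx])

lemma has_pyy (x y : ℝ) : HasDerivAt (fun s => py w x s) (pyy w x y) y := by
  have h1 : HasFDerivAt (fderiv ℝ fun p : ℝ × ℝ => w p.1 p.2) _ (x, y) :=
    ((fd1 hw).differentiable (by norm_num) (x, y)).hasFDerivAt
  have h2 := h1.comp_hasDerivAt y (line_y x y)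
  have h3 := h2.clm_apply (hasDerivAt_const y ((0 : ℝ), (1 : ℝ)))
  exact h3.congr_deriv (by simp [pyy])

lemma cont_pxx : Continuous fun p : ℝ × ℝ => pxx w p.1 p.2 := by
  have h := (fd1 hw).continuous_fderiv (by norm_num)
  exact ((h.comp (by fun_prop : Continuous fun p : ℝ × ℝ => (p.1, p.2))).clm_apply
    continuous_const).clm_apply continuous_const

lemma deriv2_x (x y : ℝ) : deriv (deriv fun s => w s y) x = pxx w x y := by
  have h1 : (deriv fun s => w s y) = fun s => px w s y := by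
    funext s
    exact deriv_px hw s y
  rw [h1]
  exact (has_pxx hw x y).deriv

lemma deriv2_y (x y : ℝ) : deriv (deriv fun s => w x s) y = pyy w x y := by
  have h1 : (deriv fun s => w x s) = fun s => py w x s := by
    funext s
    exact deriv_py hw x s
  rw [h1]
  exact (has_pyy hw x y).deriv

theorem spins_lim {b : ℝ} (hb : 0 < b)
    (hh : ∀ x y : ℝ, deriv (deriv fun s => w s y) x + deriv (deriv fun s => w x s) y = 0) :
    Tendsto (fun N => bdryZ N b w / bdryZ N b 0) atTop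
      (𝓝 (Real.exp (-(helicity b / 2 * ∫ x in (0 : ℝ)..1, ∫ y in (0 : ℝ)..1,
        (deriv (fun s => w s y) x ^ 2 + deriv (fun s => w x s) y ^ 2))))) := by
  have h1 := bdry_lim hb (g := w) (p := px w) (q := py w) (f := pxx w) (cont_px hw) (cont_py hw)
    (cont_pxx hw) (fun x y => has_px hw x y) (fun x y => has_py hw x y)
    (fun x y => has_pxx hw x y) (fun x y => by
      have h2 := hh x y
      rw [deriv2_x hw, deriv2_y hw] at h2
      have h3 : -pxx w x y = pyy w x y := by linarith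
      rw [h3]
      exact has_pyy hw x y)
  simp only [deriv_px hw, deriv_py hw]
  exact h1

end

theorem final :
    -- the heights are well defined
    (∀ b : ℝ, 0 < b → (∀ n : ℤ, 0 < bes b n) ∧ ∀ N : ℕ,
      (Summable fun h : Hgt N => hWt N b h.1) ∧ 0 < ∑' h : Hgt N, hWt N b h.1) ∧
    -- the scaling limit of the heights
    (∀ b : ℝ, 0 < b → ∀ w : ℝ → ℝ → ℝ, (ContDiff ℝ 2 fun p : ℝ × ℝ => w p.1 p.2) →
      ∀ z : ℂ, Tendsto (fun N => hMean N b fun h => Complex.exp (z * dform N w h)) atTop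
        (𝓝 (Complex.exp (z ^ 2 * (helicity b / 2 * ∫ x in (0 : ℝ)..1, ∫ y in (0 : ℝ)..1,
          (deriv (fun s => w s y) x ^ 2 + deriv (fun s => w x s) y ^ 2) : ℝ))))) ∧
    -- the Fourier modes of the heights
    (∀ b : ℝ, 0 < b → ∀ (K : Finset (ℕ × ℕ)) (a : ℕ × ℕ → ℝ), (0, 0) ∉ K →
      ∀ z : ℂ, Tendsto (fun N => hMean N b fun h =>
        Complex.exp (z * ((∑ k ∈ K, a k * fmode N k.1 k.2 h : ℝ) : ℂ))) atTop
        (𝓝 (Complex.exp (z ^ 2 / 2 * ((∑ k ∈ K, a k ^ 2 * (helicity b * (cnrm k.1 * cnrm k.2) /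
          (Real.pi ^ 2 * ((k.1 : ℝ) ^ 2 + (k.2 : ℝ) ^ 2))) : ℝ) : ℂ))))) ∧
    -- the spins with harmonic boundary values
    (∀ b : ℝ, 0 < b → ∀ g : ℝ → ℝ → ℝ, (ContDiff ℝ 2 fun p : ℝ × ℝ => g p.1 p.2) →
      (∀ x y : ℝ, deriv (deriv fun s => g s y) x + deriv (deriv fun s => g x s) y = 0) →
      Tendsto (fun N => bdryZ N b g / bdryZ N b 0) atTop
        (𝓝 (Real.exp (-(helicity b / 2 * ∫ x in (0 : ℝ)..1, ∫ y in (0 : ℝ)..1,
          (deriv (fun s => g s y) x ^ 2 + deriv (fun s => g x s) y ^ 2)))))) ∧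
    -- the coupling constant of the limit
    (∀ b : ℝ, 0 < b → b < bCrit → helicity b = 0) ∧
    (∀ b : ℝ, bCrit ≤ b → 2 / Real.pi ≤ helicity b) := by
  refine ⟨fun b hb => ⟨fun n => bes_pos hb n, fun N => ⟨summable_hWt N hb, tsum_hWt_pos N hb⟩⟩,
    fun b hb w hw z => heights_lim hw hb z, fun b hb K a hK z => modes_lim hb K hK a z,
    fun b hb g hg hh => spins_lim hg hb hh, fun b hb hlt => (H170.final.2.1 b hb hlt).2.1,
    fun b hb => ?_⟩
  have h := H170.final.2.2.1.2.2.2 b hb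
  exact h.2.1.trans h.2.2.1

end Vale.Agent.P159.R2.H254
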