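import Vale.Agent.P159.H353.Bij

/-!
Laurent series of `exp (b (z + 1/z) / 2)`.
-/

open MeasureTheory Filter Topology

namespace Vale.Agent.P159.R2.H254

open Vale.Agent.P159 Vale.Agent.P159.H353

lemma hasSum_aw_z (b : ℝ) (k : ℕ) {z : ℂ} (hz : z ≠ 0) :
    HasSum (fun n : ℤ => (aw b k n : ℂ) * z ^ n)
      ((b / 2 * (z⁻¹ * (1 + z) ^ 2)) ^ k / (k.factorial : ℂ)) := by
  have h := (hasSum_cb z hz k).mul_left ((((b / 2) ^ k / (k.factorial : ℝ) : ℝ)) : ℂ)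
  have e : ((((b / 2) ^ k / (k.factorial : ℝ) : ℝ)) : ℂ) *
      (z ^ (-(k : ℤ)) * (1 + z) ^ (2 * k)) =
      ((b / 2 * (z⁻¹ * (1 + z) ^ 2)) ^ k / (k.factorial : ℂ)) := by
    rw [zpow_neg, zpow_natCast, ← inv_pow, pow_mul, ← mul_pow, mul_pow (b / 2 : ℂ)]
    push_cast
    ring
  rw [e] at h
  refine hs_congr h fun n => ?_
  unfold aw
  push_cast
  ring

lemma norm_aw_z {b : ℝ} (hb : 0 ≤ b) (k : ℕ) (n : ℤ) (z : ℂ) :
    ‖(aw b k n : ℂ) * z ^ n‖ = aw b k n * ‖z‖ ^ n := by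
  rw [norm_mul, norm_zpow, Complex.norm_real, Real.norm_eq_abs, abs_of_nonneg (aw_nonneg hb _ _)]

lemma summable_aw_z {b : ℝ} (hb : 0 ≤ b) {z : ℂ} (hz : z ≠ 0) :
    Summable fun p : ℕ × ℤ => (aw b p.1 p.2 : ℂ) * z ^ p.2 := by
  have hr : ((‖z‖ : ℝ) : ℂ) ≠ 0 := by
    rw [Complex.ofReal_ne_zero]
    exact (norm_pos_iff.2 hz).ne'
  have hrow : ∀ k : ℕ, HasSum (fun n : ℤ => aw b k n * ‖z‖ ^ n)
      ((b / 2 * (‖z‖⁻¹ * (1 + ‖z‖) ^ 2)) ^ k / (k.factorial : ℝ)) := by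
    intro k
    have h := hasSum_aw_z b k hr
    have h2 := Complex.hasSum_re h
    convert h2 using 1
    · funext n
      rw [← Complex.ofReal_zpow, ← Complex.ofReal_mul, Complex.ofReal_re]
    · rw [← Complex.ofReal_one, ← Complex.ofReal_add, ← Complex.ofReal_inv, ← Complex.ofReal_pow,
        ← Complex.ofReal_mul, ← Complex.ofReal_ofNat, ← Complex.ofReal_div, ← Complex.ofReal_mul,
        ← Complex.ofReal_pow, ← Complex.ofReal_natCast, ← Complex.ofReal_div, Complex.ofReal_re]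
  refine Summable.of_norm ?_
  refine Summable.congr (f := fun p : ℕ × ℤ => aw b p.1 p.2 * ‖z‖ ^ p.2) ?_
    (fun p => (norm_aw_z hb p.1 p.2 z).symm)
  refine (summable_prod_of_nonneg (fun p => mul_nonneg (aw_nonneg hb _ _)
    (zpow_nonneg (norm_nonneg _) _))).2 ⟨fun k => (hrow k).summable, ?_⟩
  have : (fun k : ℕ => ∑' n : ℤ, aw b k n * ‖z‖ ^ n) =
      fun k : ℕ => (b / 2 * (‖z‖⁻¹ * (1 + ‖z‖) ^ 2)) ^ k / (k.factorial : ℝ) :=
    funext fun k => (hrow k).tsum_eq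
  rw [this]
  exact Real.summable_pow_div_factorial _

/-- Laurent series -/
theorem laurent {b : ℝ} (hb : 0 ≤ b) {z : ℂ} (hz : z ≠ 0) :
    HasSum (fun n : ℤ => (wI b n : ℂ) * z ^ n) (Complex.exp (b * ((z + z⁻¹) / 2))) := by
  have hsum := summable_aw_z hb hz
  have h1 : ∑' p : ℕ × ℤ, (aw b p.1 p.2 : ℂ) * z ^ p.2 =
      Complex.exp (b / 2 * (z⁻¹ * (1 + z) ^ 2)) := by
    rw [hsum.tsum_prod]
    have e1 : ∀ k : ℕ, ∑' n : ℤ, (aw b k n : ℂ) * z ^ n =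
        (b / 2 * (z⁻¹ * (1 + z) ^ 2)) ^ k / (k.factorial : ℂ) :=
      fun k => (hasSum_aw_z b k hz).tsum_eq
    simp only [e1]
    rw [Complex.exp_eq_exp_ℂ, NormedSpace.exp_eq_tsum_div]
  have h2 : HasSum (fun n : ℤ => ∑' k : ℕ, (aw b k n : ℂ) * z ^ n)
      (Complex.exp (b / 2 * (z⁻¹ * (1 + z) ^ 2))) := by
    have h3 : Summable fun p : ℤ × ℕ => (aw b p.2 p.1 : ℂ) * z ^ p.1 := hsum.prod_symm
    have h4 : ∑' p : ℤ × ℕ, (aw b p.2 p.1 : ℂ) * z ^ p.1 =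
        Complex.exp (b / 2 * (z⁻¹ * (1 + z) ^ 2)) := by
      rw [← h1, ← (Equiv.prodComm ℤ ℕ).tsum_eq]
      rfl
    rw [← h4, h3.tsum_prod]
    exact h3.prod.hasSum
  have h5 := h2.mul_left ((Real.exp (-b) : ℝ) : ℂ)
  have e2 : ((Real.exp (-b) : ℝ) : ℂ) * Complex.exp (b / 2 * (z⁻¹ * (1 + z) ^ 2)) =
      Complex.exp (b * ((z + z⁻¹) / 2)) := by
    rw [Complex.ofReal_exp, ← Complex.exp_add]
    congr 1
    push_cast
    field_simp
    ring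
  rw [e2] at h5
  refine hs_congr h5 fun n => ?_
  rw [wI_eq, tsum_mul_right]
  push_cast
  ring

end Vale.Agent.P159.R2.H254
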