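import Vale.Agent.P159.R2.H254.Expand
import Vale.Agent.P159.H950.F7

/-!
The partition function in a gauge field and the heights.
-/

open MeasureTheory Filter Topology

namespace Vale.Agent.P159.R2.H254

open Vale.Agent.P159 Vale.Agent.P159.H353

/-! ### The weights -/

lemma integral_gS_fourier {b : ℝ} (hb : 0 ≤ b) (m : ℤ) :
    ∫ x : T, (fourier (-m) x : ℂ) * (gS b x : ℂ) ∂AddCircle.haarAddCircle = (wI b m : ℂ) := by
  have hs := hasSum_integral_of_summable_integral_norm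
    (μ := (AddCircle.haarAddCircle : Measure T))
    (F := fun (n : ℤ) (x : T) => (fourier (-m) x : ℂ) * ((wI b n : ℂ) * (fourier n x : ℂ)))
    (fun n => ((by fun_prop : Continuous fun x : T =>
      (fourier (-m) x : ℂ) * ((wI b n : ℂ) * (fourier n x : ℂ))).integrable_of_hasCompactSupport
        (HasCompactSupport.of_compactSpace _))) (by
      refine (summable_wI hb).congr fun n => ?_
      have : ∀ x : T, ‖(fourier (-m) x : ℂ) * ((wI b n : ℂ) * (fourier n x : ℂ))‖ = wI b n := by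
        intro x
        rw [norm_mul, norm_mul, fourier_norm_one, fourier_norm_one, one_mul, mul_one,
          Complex.norm_real, Real.norm_eq_abs, abs_of_nonneg (wI_nonneg hb n)]
      simp only [this]
      simp)
  have e1 : ∀ x : T, ∑' n : ℤ, (fourier (-m) x : ℂ) * ((wI b n : ℂ) * (fourier n x : ℂ)) =
      (fourier (-m) x : ℂ) * (gS b x : ℂ) := by
    intro x
    rw [tsum_mul_left, (hasSum_gS hb x).tsum_eq]
  have e2 : ∀ n : ℤ, ∫ x : T, (fourier (-m) x : ℂ) * ((wI b n : ℂ) * (fourier n x : ℂ))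
      ∂AddCircle.haarAddCircle = if n = m then (wI b n : ℂ) else 0 := by
    intro n
    have : ∀ x : T, (fourier (-m) x : ℂ) * ((wI b n : ℂ) * (fourier n x : ℂ)) =
        (wI b n : ℂ) * (fourier (-m + n) x : ℂ) := by
      intro x
      rw [fourier_add]
      ring
    simp only [this]
    rw [integral_const_mul, integral_fourier]
    by_cases h : n = m
    · simp [h]
    · have : ¬ (-m + n = 0) := by omega
      simp [h, this]
  simp only [e1, e2] at hs
  have h3 : HasSum (fun n : ℤ => if n = m then (wI b n : ℂ) else 0) (wI b m : ℂ) :=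
    hs_congr (hasSum_ite_eq m (wI b m : ℂ)) fun n => by by_cases h : n = m <;> simp [h]
  exact hs.unique h3

lemma gS_coe (b x : ℝ) : gS b ((x : ℝ) : T) = Real.exp (b * Real.cos x) := by
  unfold gS
  have h1 : cosT ((x : ℝ) : T) = Real.cos x := Real.Angle.cos_coe x
  rw [h1]

lemma fourier_re (n : ℤ) (x : ℝ) : ((fourier n ((x : ℝ) : T) : ℂ)).re = Real.cos (n * x) := by
  rw [fourier_coe, Complex.exp_ofReal_mul_I_re, mul_comm]

theorem bes_eq {b : ℝ} (hb : 0 ≤ b) (n : ℤ) : bes b n = wI b n := by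
  have h1 := fourierCoeff_eq_intervalIntegral (T := 2 * Real.pi)
    (fun x : T => (gS b x : ℂ)) n 0
  have h2 : fourierCoeff (fun x : T => (gS b x : ℂ)) n = (wI b n : ℂ) := by
    have := integral_gS_fourier hb n
    unfold fourierCoeff
    simpa only [smul_eq_mul] using this
  rw [h2] at h1
  have h3 := congrArg Complex.re h1
  rw [Complex.ofReal_re] at h3
  rw [h3]
  unfold bes
  have hc : Continuous fun x : ℝ => (fourier (-n) ((x : ℝ) : T) : ℂ) • ((gS b (x : T) : ℝ) : ℂ) := by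
    have h5 : Continuous fun x : T => (fourier (-n) x : ℂ) • ((gS b x : ℝ) : ℂ) :=
      (fourier (-n)).continuous.smul (Complex.continuous_ofReal.comp (gS_cont b))
    exact h5.comp (AddCircle.continuous_mk' _)
  rw [zero_add, Complex.smul_re, smul_eq_mul, one_div]
  have h4 := intervalIntegral.intervalIntegral_re (𝕜 := ℂ) (hc.intervalIntegrable (μ := volume) 0 (2 * Real.pi))
  have h6 : (∫ x in (0 : ℝ)..(2 * Real.pi), (fourier (-n) ((x : ℝ) : T) : ℂ) •
      ((gS b (x : T) : ℝ) : ℂ)).re = ∫ x in (0 : ℝ)..(2 * Real.pi),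
      ((fourier (-n) ((x : ℝ) : T) : ℂ) • ((gS b (x : T) : ℝ) : ℂ)).re := h4.symm
  rw [h6]
  congr 1
  refine intervalIntegral.integral_congr fun x _ => ?_
  show _ = ((fourier (-n) ((x : ℝ) : T) : ℂ) • ((gS b (x : T) : ℝ) : ℂ)).re
  rw [smul_eq_mul, mul_comm (fourier (-n) ((x : ℝ) : T) : ℂ), Complex.re_ofReal_mul, gS_coe,
    fourier_re]
  push_cast
  rw [neg_mul, Real.cos_neg]

lemma hWt_eq {N : ℕ} {b : ℝ} (hb : 0 ≤ b) (h : Fa N → ℤ) : hWt N b h = ∏ e, wI b (bcur h e) := by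
  unfold hWt
  rw [Fintype.prod_sum_type, Fintype.prod_prod_type, Fintype.prod_prod_type]
  congr 1
  · refine Finset.prod_congr rfl fun i _ => Finset.prod_congr rfl fun j _ => ?_
    rw [bes_eq hb, ← wI_neg]
    simp only [bcur, blf, brt]
    congr 1
    ring
  · refine Finset.prod_congr rfl fun i _ => Finset.prod_congr rfl fun j _ => ?_
    rw [bes_eq hb]
    rfl

/-! ### The energy -/

/-- field on the bonds -/
def tE {N : ℕ} (α β : ℤ × ℤ → ℝ) : Eb N → ℝ
  | Sum.inl p => β ((p.1.1 : ℤ) + 1, (p.2.1 : ℤ))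
  | Sum.inr p => α ((p.1.1 : ℤ), (p.2.1 : ℤ) + 1)

/-- energy of the bonds between boundary sites -/
noncomputable def bdE (L : ℕ) (b : ℝ) (α β : ℤ × ℤ → ℝ) (w : ℂ) : ℂ :=
  ∑ i ∈ Finset.range L, (b : ℂ) / 2 * (Complex.cos (w * α ((i : ℤ), 0)) +
    Complex.cos (w * α ((i : ℤ), (L : ℤ))) + Complex.cos (w * β (0, (i : ℤ))) +
    Complex.cos (w * β ((L : ℤ), (i : ℤ))))

lemma cosC_zero (w : ℂ) : cosC 0 w = Complex.cos w := by
  unfold cosC
  have h1 : cosT 0 = 1 := Real.Angle.cos_zero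
  have h2 : sinT 0 = 0 := Real.Angle.sin_zero
  rw [h1, h2]
  simp

lemma two_row (N : ℕ) (F : ℤ → ℂ) :
    ∑ j ∈ Finset.range (N + 1), (F (j : ℤ) + F ((j : ℤ) + 1)) =
      F 0 + F ((N + 1 : ℕ) : ℤ) + 2 * ∑ j ∈ Finset.range N, F ((j : ℤ) + 1) := by
  rw [Finset.sum_add_distrib, Finset.sum_range_succ', Finset.sum_range_succ]
  push_cast
  ring

lemma ext_off {N : ℕ} (θ : inner (N + 1) → T) {v : ℤ × ℤ} (hv : v ∉ inner (N + 1)) :
    ext θ v = 0 := by
  unfold ext
  rw [dif_neg hv]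

lemma not_inner_left {N : ℕ} (y : ℤ) : ((0 : ℤ), y) ∉ inner (N + 1) := by
  unfold inner
  rw [Finset.mem_Icc, Prod.le_def]
  simp

lemma not_inner_bot {N : ℕ} (x : ℤ) : (x, (0 : ℤ)) ∉ inner (N + 1) := by
  unfold inner
  rw [Finset.mem_Icc, Prod.le_def]
  simp

lemma not_inner_right {N : ℕ} (y : ℤ) : (((N + 1 : ℕ) : ℤ), y) ∉ inner (N + 1) := by
  unfold inner
  rw [Finset.mem_Icc, Prod.le_def, Prod.le_def]
  simp

lemma not_inner_top {N : ℕ} (x : ℤ) : (x, ((N + 1 : ℕ) : ℤ)) ∉ inner (N + 1) := by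
  unfold inner
  rw [Finset.mem_Icc, Prod.le_def, Prod.le_def]
  simp

theorem energy_split (N : ℕ) (b : ℝ) (α β : ℤ × ℤ → ℝ) (w : ℂ) (θ : inner (N + 1) → T) :
    gaugeEnergyC (N + 1) b α β w (ext θ) =
      (∑ e : Eb N, (b : ℂ) * cosC (bth θ e) (w * tE α β e)) + bdE (N + 1) b α β w := by
  set H : ℤ → ℤ → ℂ := fun i j => cosC (ext θ (i, j) - ext θ (i + 1, j)) (w * α (i, j)) with hH
  set V : ℤ → ℤ → ℂ := fun i j => cosC (ext θ (i, j) - ext θ (i, j + 1)) (w * β (i, j)) with hV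
  have e0 : gaugeEnergyC (N + 1) b α β w (ext θ) =
      (b : ℂ) / 2 * ((∑ i ∈ Finset.range (N + 1), ∑ j ∈ Finset.range (N + 1),
        (H i j + H i (j + 1))) + ∑ j ∈ Finset.range (N + 1), ∑ i ∈ Finset.range (N + 1),
        (V i j + V (i + 1) j)) := by
    unfold gaugeEnergyC
    rw [Finset.sum_comm (s := Finset.range (N + 1)) (t := Finset.range (N + 1))
      (f := fun j i => V (i : ℤ) (j : ℤ) + V ((i : ℤ) + 1) (j : ℤ)), ← Finset.sum_add_distrib,
      Finset.mul_sum]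
    refine Finset.sum_congr rfl fun i _ => ?_
    rw [← Finset.sum_add_distrib, Finset.mul_sum]
    refine Finset.sum_congr rfl fun j _ => ?_
    simp only [hH, hV]
    ring
  have e1 : ∀ i : ℕ, ∑ j ∈ Finset.range (N + 1), (H i j + H i (j + 1)) =
      H i 0 + H i ((N + 1 : ℕ) : ℤ) + 2 * ∑ j ∈ Finset.range N, H i ((j : ℤ) + 1) :=
    fun i => two_row N (H i)
  have e2 : ∀ j : ℕ, ∑ i ∈ Finset.range (N + 1), (V i j + V (i + 1) j) =
      V 0 j + V ((N + 1 : ℕ) : ℤ) j + 2 * ∑ i ∈ Finset.range N, V ((i : ℤ) + 1) j :=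
    fun j => two_row N (fun i => V i j)
  have f1 : ∀ i : ℤ, H i 0 = Complex.cos (w * α (i, 0)) := by
    intro i
    simp only [hH]
    rw [ext_off θ (not_inner_bot _), ext_off θ (not_inner_bot _), sub_zero, cosC_zero]
  have f2 : ∀ i : ℤ, H i ((N + 1 : ℕ) : ℤ) = Complex.cos (w * α (i, ((N + 1 : ℕ) : ℤ))) := by
    intro i
    simp only [hH]
    rw [ext_off θ (not_inner_top _), ext_off θ (not_inner_top _), sub_zero, cosC_zero]
  have f3 : ∀ j : ℤ, V 0 j = Complex.cos (w * β (0, j)) := by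
    intro j
    simp only [hV]
    rw [ext_off θ (not_inner_left _), ext_off θ (not_inner_left _), sub_zero, cosC_zero]
  have f4 : ∀ j : ℤ, V ((N + 1 : ℕ) : ℤ) j = Complex.cos (w * β (((N + 1 : ℕ) : ℤ), j)) := by
    intro j
    simp only [hV]
    rw [ext_off θ (not_inner_right _), ext_off θ (not_inner_right _), sub_zero, cosC_zero]
  have e3 : ∑ e : Eb N, (b : ℂ) * cosC (bth θ e) (w * tE α β e) =
      (b : ℂ) * ((∑ j ∈ Finset.range (N + 1), ∑ i ∈ Finset.range N, V ((i : ℤ) + 1) j) +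
        ∑ i ∈ Finset.range (N + 1), ∑ j ∈ Finset.range N, H i ((j : ℤ) + 1)) := by
    rw [Fintype.sum_sum_type, Fintype.sum_prod_type, Fintype.sum_prod_type, mul_add]
    congr 1
    · rw [Finset.sum_comm, ← Fin.sum_univ_eq_sum_range
        (fun j => ∑ i ∈ Finset.range N, V ((i : ℤ) + 1) (j : ℤ)), Finset.mul_sum]
      refine Finset.sum_congr rfl fun j _ => ?_
      rw [← Fin.sum_univ_eq_sum_range (fun i => V ((i : ℤ) + 1) ((j : ℕ) : ℤ)), Finset.mul_sum]
      rfl
    · rw [← Fin.sum_univ_eq_sum_range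
        (fun i => ∑ j ∈ Finset.range N, H (i : ℤ) ((j : ℤ) + 1)), Finset.mul_sum]
      refine Finset.sum_congr rfl fun i _ => ?_
      rw [← Fin.sum_univ_eq_sum_range (fun j => H ((i : ℕ) : ℤ) ((j : ℤ) + 1)), Finset.mul_sum]
      rfl
  rw [e0, e3]
  simp only [e1, e2, f1, f2, f3, f4, Finset.sum_add_distrib, ← Finset.mul_sum]
  unfold bdE
  rw [← Finset.mul_sum]
  simp only [Finset.sum_add_distrib]
  ring

theorem gaugeZC_eq (N : ℕ) (b : ℝ) (α β : ℤ × ℤ → ℝ) (w : ℂ) :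
    gaugeZC (N + 1) b α β w =
      Complex.exp (bdE (N + 1) b α β w) * ZC N b (fun e => w * tE α β e) := by
  unfold gaugeZC ZC
  rw [← integral_const_mul]
  congr 1
  funext θ
  rw [energy_split, Complex.exp_add, Complex.exp_sum, mul_comm]

lemma norm_cos_sub_one {z : ℂ} (hz : ‖z‖ ≤ 1) : ‖Complex.cos z - 1‖ ≤ ‖z‖ ^ 2 := by
  have h1 : ‖z * Complex.I‖ = ‖z‖ := by rw [norm_mul, Complex.norm_I, mul_one]
  have h2 : ‖-z * Complex.I‖ = ‖z‖ := by rw [norm_mul, Complex.norm_I, mul_one, norm_neg]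
  have g1 := Complex.norm_exp_sub_one_sub_id_le (x := z * Complex.I) (by rw [h1]; exact hz)
  have g2 := Complex.norm_exp_sub_one_sub_id_le (x := -z * Complex.I) (by rw [h2]; exact hz)
  rw [h1] at g1
  rw [h2] at g2
  have e : Complex.cos z - 1 = ((Complex.exp (z * Complex.I) - 1 - z * Complex.I) +
      (Complex.exp (-z * Complex.I) - 1 - -z * Complex.I)) / 2 := by
    rw [Complex.cos]
    ring
  rw [e, norm_div, Complex.norm_ofNat]
  have := norm_add_le (Complex.exp (z * Complex.I) - 1 - z * Complex.I)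
    (Complex.exp (-z * Complex.I) - 1 - -z * Complex.I)
  linarith

end Vale.Agent.P159.R2.H254
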