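import Vale.Agent.P159.R2.H254.Link
import Mathlib.Analysis.Calculus.FDeriv.Symmetric

/-!
The scaling limit of the heights.
-/

open MeasureTheory Filter Topology

namespace Vale.Agent.P159.R2.H254

open Vale.Agent.P159 Vale.Agent.P159.H353 Vale.Agent.P159.H950

/-! ### Smooth functions -/

section

variable {w : ℝ → ℝ → ℝ} (hw : ContDiff ℝ 2 fun p : ℝ × ℝ => w p.1 p.2)

/-- partial derivatives -/
noncomputable def px (w : ℝ → ℝ → ℝ) (x y : ℝ) : ℝ :=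
  fderiv ℝ (fun p : ℝ × ℝ => w p.1 p.2) (x, y) (1, 0)

/-- partial derivatives -/
noncomputable def py (w : ℝ → ℝ → ℝ) (x y : ℝ) : ℝ :=
  fderiv ℝ (fun p : ℝ × ℝ => w p.1 p.2) (x, y) (0, 1)

/-- mixed partial derivative -/
noncomputable def pxy (w : ℝ → ℝ → ℝ) (x y : ℝ) : ℝ :=
  fderiv ℝ (fderiv ℝ (fun p : ℝ × ℝ => w p.1 p.2)) (x, y) (1, 0) (0, 1)

lemma line_x (x y : ℝ) : HasDerivAt (fun s : ℝ => (s, y)) ((1 : ℝ), (0 : ℝ)) x :=
  (hasDerivAt_id x).prodMk (hasDerivAt_const x y)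

lemma line_y (x y : ℝ) : HasDerivAt (fun s : ℝ => (x, s)) ((0 : ℝ), (1 : ℝ)) y :=
  (hasDerivAt_const y x).prodMk (hasDerivAt_id y)

include hw

lemma has_px (x y : ℝ) : HasDerivAt (fun s => w s y) (px w x y) x := by
  have h1 : HasFDerivAt (fun p : ℝ × ℝ => w p.1 p.2) _ (x, y) :=
    (hw.differentiable (by norm_num) (x, y)).hasFDerivAt
  exact h1.comp_hasDerivAt x (line_x x y)

lemma has_py (x y : ℝ) : HasDerivAt (fun s => w x s) (py w x y) y := by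
  have h1 : HasFDerivAt (fun p : ℝ × ℝ => w p.1 p.2) _ (x, y) :=
    (hw.differentiable (by norm_num) (x, y)).hasFDerivAt
  exact h1.comp_hasDerivAt y (line_y x y)

lemma cont_px : Continuous fun p : ℝ × ℝ => px w p.1 p.2 := by
  have h := hw.continuous_fderiv (by norm_num)
  exact (h.comp (by fun_prop : Continuous fun p : ℝ × ℝ => (p.1, p.2))).clm_apply continuous_const

lemma cont_py : Continuous fun p : ℝ × ℝ => py w p.1 p.2 := by
  have h := hw.continuous_fderiv (by norm_num)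
  exact (h.comp (by fun_prop : Continuous fun p : ℝ × ℝ => (p.1, p.2))).clm_apply continuous_const

lemma fd1 : ContDiff ℝ 1 (fderiv ℝ fun p : ℝ × ℝ => w p.1 p.2) :=
  hw.fderiv_right (by norm_num)

lemma cont_pxy : Continuous fun p : ℝ × ℝ => pxy w p.1 p.2 := by
  have h := (fd1 hw).continuous_fderiv (by norm_num)
  exact ((h.comp (by fun_prop : Continuous fun p : ℝ × ℝ => (p.1, p.2))).clm_apply
    continuous_const).clm_apply continuous_const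

lemma has_pyx (x y : ℝ) : HasDerivAt (fun s => py w s y) (pxy w x y) x := by
  have h1 : HasFDerivAt (fderiv ℝ fun p : ℝ × ℝ => w p.1 p.2) _ (x, y) :=
    ((fd1 hw).differentiable (by norm_num) (x, y)).hasFDerivAt
  have h2 := h1.comp_hasDerivAt x (line_x x y)
  have h3 := h2.clm_apply (hasDerivAt_const x ((0 : ℝ), (1 : ℝ)))
  exact h3.congr_deriv (by simp [pxy])

lemma has_pxy (x y : ℝ) : HasDerivAt (fun s => px w x s) (pxy w x y) y := by
  have h1 : HasFDerivAt (fderiv ℝ fun p : ℝ × ℝ => w p.1 p.2) _ (x, y) :=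
    ((fd1 hw).differentiable (by norm_num) (x, y)).hasFDerivAt
  have h2 := h1.comp_hasDerivAt y (line_y x y)
  have h3 := h2.clm_apply (hasDerivAt_const y ((1 : ℝ), (0 : ℝ)))
  have hs := ContDiffAt.isSymmSndFDerivAt (hw.contDiffAt (x := (x, y))) (by simp)
  have h4 : pxy w x y = fderiv ℝ (fderiv ℝ (fun p : ℝ × ℝ => w p.1 p.2)) (x, y) (0, 1) (1, 0) :=
    hs (1, 0) (0, 1)
  rw [h4]
  exact h3.congr_deriv (by simp)

lemma deriv_px (x y : ℝ) : deriv (fun s => w s y) x = px w x y := (has_px hw x y).deriv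

lemma deriv_py (x y : ℝ) : deriv (fun s => w x s) y = py w x y := (has_py hw x y).deriv

omit hw in
/-- field on the horizontal bonds -/
noncomputable def αf (w : ℝ → ℝ → ℝ) (L : ℕ) (v : ℤ × ℤ) : ℝ :=
  w (((v.1 : ℝ) + 1 / 2) / L) (((v.2 : ℝ) + 1 / 2) / L) -
    w (((v.1 : ℝ) + 1 / 2) / L) (((v.2 : ℝ) - 1 / 2) / L)

omit hw in
/-- field on the vertical bonds -/
noncomputable def βf (w : ℝ → ℝ → ℝ) (L : ℕ) (v : ℤ × ℤ) : ℝ :=
  w (((v.1 : ℝ) - 1 / 2) / L) (((v.2 : ℝ) + 1 / 2) / L) -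
    w (((v.1 : ℝ) + 1 / 2) / L) (((v.2 : ℝ) + 1 / 2) / L)

omit hw in
lemma mv {g p : ℝ → ℝ} (hg : ∀ x, HasDerivAt g (p x) x) {L : ℕ} (hL : 1 ≤ L) (k : ℤ) :
    ∃ ξ : ℝ, |ξ - (k : ℝ) / L| ≤ (L : ℝ)⁻¹ ∧
      L * (g (((k : ℝ) + 1 / 2) / L) - g (((k : ℝ) - 1 / 2) / L)) = p ξ := by
  have hL0 : (0 : ℝ) < L := by exact_mod_cast hL
  have hlt : ((k : ℝ) - 1 / 2) / L < ((k : ℝ) + 1 / 2) / L :=
    div_lt_div_of_pos_right (by linarith) hL0
  obtain ⟨ξ, ⟨h1, h2⟩, h3⟩ := exists_hasDerivAt_eq_slope g p hlt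
    (fun x _ => (hg x).continuousAt.continuousWithinAt) (fun x _ => hg x)
  refine ⟨ξ, ?_, ?_⟩
  · have e1 : ((k : ℝ) - 1 / 2) / L = (k : ℝ) / L - 1 / 2 * (L : ℝ)⁻¹ := by ring
    have e2 : ((k : ℝ) + 1 / 2) / L = (k : ℝ) / L + 1 / 2 * (L : ℝ)⁻¹ := by ring
    have := inv_pos.2 hL0
    rw [abs_le]
    constructor <;> linarith
  · have e : ((k : ℝ) + 1 / 2) / L - ((k : ℝ) - 1 / 2) / L = 1 / L := by ring
    rw [e] at h3
    rw [h3]
    field_simp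

theorem apx_w : ApxG (fun x y => py w x y) (fun x y => -px w x y) (αf w) (βf w) := by
  intro ε hε
  obtain ⟨δ1, hδ1, h1⟩ := uc (cont_py hw) 3 hε
  obtain ⟨δ2, hδ2, h2⟩ := uc (cont_px hw) 3 hε
  have hlim : Tendsto (fun N : ℕ => (N : ℝ)⁻¹) atTop (𝓝 0) := tendsto_inv_atTop_nhds_zero_nat
  filter_upwards [hlim.eventually (ge_mem_nhds (lt_min hδ1 hδ2)), eventually_ge_atTop 1]
    with N e1 e2 v v1 v2 v3 v4
  have hNpos : (0 : ℝ) < N := by exact_mod_cast e2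
  have hN1 : (1 : ℝ) ≤ N := by exact_mod_cast e2
  have r1 : (0 : ℝ) ≤ v.1 := by exact_mod_cast v1
  have r2 : (v.1 : ℝ) ≤ N := by exact_mod_cast v2
  have r3 : (0 : ℝ) ≤ v.2 := by exact_mod_cast v3
  have r4 : (v.2 : ℝ) ≤ N := by exact_mod_cast v4
  have m1 := min_le_left δ1 δ2
  have m2 := min_le_right δ1 δ2
  have hinv : (N : ℝ)⁻¹ ≤ 1 := inv_le_one_of_one_le₀ hN1
  have hinv0 : 0 < (N : ℝ)⁻¹ := inv_pos.2 hNpos
  have a0 : ∀ k : ℝ, 0 ≤ k → k ≤ N → 0 ≤ k / N ∧ k / N ≤ 1 := fun k h3 h4 =>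
    ⟨by positivity, (div_le_one hNpos).2 h4⟩
  obtain ⟨b1, b2⟩ := a0 v.1 r1 r2
  obtain ⟨b3, b4⟩ := a0 v.2 r3 r4
  have sh : ∀ k : ℝ, (k + 1 / 2) / N = k / N + 1 / 2 * (N : ℝ)⁻¹ := by intro k; ring
  have c1 : |((v.1 : ℝ) + 1 / 2) / N| ≤ 3 := by
    rw [sh, abs_le]; constructor <;> linarith
  have c2 : |((v.2 : ℝ) + 1 / 2) / N| ≤ 3 := by
    rw [sh, abs_le]; constructor <;> linarith
  have c3 : |(v.1 : ℝ) / N| ≤ 3 := by rw [abs_le]; constructor <;> linarith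
  have c4 : |(v.2 : ℝ) / N| ≤ 3 := by rw [abs_le]; constructor <;> linarith
  have d1 : |((v.1 : ℝ) + 1 / 2) / N - (v.1 : ℝ) / N| ≤ (N : ℝ)⁻¹ := by
    rw [sh, abs_le]; constructor <;> linarith
  have d2 : |((v.2 : ℝ) + 1 / 2) / N - (v.2 : ℝ) / N| ≤ (N : ℝ)⁻¹ := by
    rw [sh, abs_le]; constructor <;> linarith
  constructor
  · obtain ⟨ξ, x1, x2⟩ := mv (fun y => has_py hw (((v.1 : ℝ) + 1 / 2) / N) y) e2 v.2
    have e3 : (N : ℝ) * αf w N v = py w (((v.1 : ℝ) + 1 / 2) / N) ξ := x2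
    rw [e3]
    have x3 := abs_le.1 x1
    exact h1 _ _ _ _ c1 (by rw [abs_le]; constructor <;> linarith) c3 c4
      (d1.trans (e1.trans m1)) (x1.trans (e1.trans m1))
  · obtain ⟨ξ, x1, x2⟩ := mv (fun x => has_px hw x (((v.2 : ℝ) + 1 / 2) / N)) e2 v.1
    have e3 : (N : ℝ) * βf w N v = -px w ξ (((v.2 : ℝ) + 1 / 2) / N) := by
      rw [← x2]
      unfold βf
      ring
    rw [e3, neg_sub_neg, abs_sub_comm]
    have x3 := abs_le.1 x1
    exact h2 _ _ _ _ (by rw [abs_le]; constructor <;> linarith) c2 c3 c4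
      (x1.trans (e1.trans m2)) (d2.trans (e1.trans m2))

end

/-! ### General sequences of fields -/

section

variable {P Q f : ℝ → ℝ → ℝ} {α β : ℕ → ℤ × ℤ → ℝ}
  (hP : Continuous fun p : ℝ × ℝ => P p.1 p.2) (hQ : Continuous fun p : ℝ × ℝ => Q p.1 p.2)
  (h : ApxG P Q α β)

include hP hQ h

/-- the boundary terms are small -/
theorem bdE_lim (b : ℝ) (z : ℂ) :
    Tendsto (fun L => bdE L b (α L) (β L) z - bdE L b (α L) (β L) 0) atTop (𝓝 0) := by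
  obtain ⟨M1, hM1⟩ := (sqr_compact 1).exists_bound_of_continuousOn hP.continuousOn
  obtain ⟨M2, hM2⟩ := (sqr_compact 1).exists_bound_of_continuousOn hQ.continuousOn
  obtain ⟨M, hM⟩ : ∃ M, M = max M1 M2 + 1 := ⟨_, rfl⟩
  have hinv : Tendsto (fun N : ℕ => (N : ℝ)⁻¹) atTop (𝓝 0) := tendsto_inv_atTop_nhds_zero_nat
  have hlim1 : Tendsto (fun N : ℕ => ‖z‖ * M * (N : ℝ)⁻¹) atTop (𝓝 0) := by
    simpa using hinv.const_mul (‖z‖ * M)
  have hlim2 : Tendsto (fun N : ℕ => 2 * |b| * (‖z‖ * M) ^ 2 * (N : ℝ)⁻¹) atTop (𝓝 0) := by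
    simpa using hinv.const_mul (2 * |b| * (‖z‖ * M) ^ 2)
  refine squeeze_zero_norm' ?_ hlim2
  filter_upwards [h 1 one_pos, eventually_ge_atTop 1, hlim1.eventually (ge_mem_nhds one_pos)]
    with L h1 h2 h3
  have hLpos : (0 : ℝ) < L := by exact_mod_cast h2
  have hsq : ∀ x y : ℝ, 0 ≤ x → x ≤ 1 → 0 ≤ y → y ≤ 1 → (x, y) ∈ sqr 1 := fun x y a1 a2 a3 a4 =>
    mem_sqr.2 ⟨by rw [abs_le]; constructor <;> linarith, by rw [abs_le]; constructor <;> linarith⟩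
  have a0 : ∀ k : ℤ, 0 ≤ k → k ≤ L → 0 ≤ (k : ℝ) / L ∧ (k : ℝ) / L ≤ 1 := by
    intro k h3 h4
    have h3' : (0 : ℝ) ≤ k := by exact_mod_cast h3
    have h4' : (k : ℝ) ≤ L := by exact_mod_cast h4
    exact ⟨by positivity, (div_le_one hLpos).2 h4'⟩
  have key : ∀ v : ℤ × ℤ, 0 ≤ v.1 → v.1 ≤ L → 0 ≤ v.2 → v.2 ≤ L →
      |α L v| ≤ M * (L : ℝ)⁻¹ ∧ |β L v| ≤ M * (L : ℝ)⁻¹ := by
    intro v v1 v2 v3 v4
    obtain ⟨g1, g2⟩ := h1 v v1 v2 v3 v4
    obtain ⟨b1, b2⟩ := a0 v.1 v1 v2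
    obtain ⟨b3, b4⟩ := a0 v.2 v3 v4
    have k1 := hM1 _ (hsq _ _ b1 b2 b3 b4)
    have k2 := hM2 _ (hsq _ _ b1 b2 b3 b4)
    rw [Real.norm_eq_abs] at k1 k2
    simp only at k1 k2
    have m1 := le_max_left M1 M2
    have m2 := le_max_right M1 M2
    have n1 := abs_sub_abs_le_abs_sub ((L : ℝ) * α L v) (P ((v.1 : ℝ) / L) ((v.2 : ℝ) / L))
    have n2 := abs_sub_abs_le_abs_sub ((L : ℝ) * β L v) (Q ((v.1 : ℝ) / L) ((v.2 : ℝ) / L))
    rw [abs_mul, abs_of_pos hLpos] at n1 n2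
    constructor
    · rw [← div_eq_mul_inv, le_div_iff₀ hLpos, mul_comm]
      linarith
    · rw [← div_eq_mul_inv, le_div_iff₀ hLpos, mul_comm]
      linarith
  have kc : ∀ r : ℝ, |r| ≤ M * (L : ℝ)⁻¹ →
      ‖Complex.cos (z * r) - Complex.cos (0 * r)‖ ≤ (‖z‖ * M * (L : ℝ)⁻¹) ^ 2 := by
    intro r hr
    rw [zero_mul, Complex.cos_zero]
    have n1 : ‖z * (r : ℂ)‖ ≤ ‖z‖ * M * (L : ℝ)⁻¹ := by
      rw [norm_mul, Complex.norm_real, Real.norm_eq_abs, mul_assoc]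
      exact mul_le_mul_of_nonneg_left hr (norm_nonneg _)
    exact (norm_cos_sub_one (n1.trans h3)).trans (pow_le_pow_left₀ (norm_nonneg _) n1 2)
  unfold bdE
  rw [← Finset.sum_sub_distrib]
  have hterm : ∀ i ∈ Finset.range L, ‖(b : ℂ) / 2 * (Complex.cos (z * α L ((i : ℤ), 0)) +
      Complex.cos (z * α L ((i : ℤ), (L : ℤ))) + Complex.cos (z * β L (0, (i : ℤ))) +
      Complex.cos (z * β L ((L : ℤ), (i : ℤ)))) -
      (b : ℂ) / 2 * (Complex.cos (0 * α L ((i : ℤ), 0)) +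
      Complex.cos (0 * α L ((i : ℤ), (L : ℤ))) + Complex.cos (0 * β L (0, (i : ℤ))) +
      Complex.cos (0 * β L ((L : ℤ), (i : ℤ))))‖ ≤ 2 * |b| * (‖z‖ * M * (L : ℝ)⁻¹) ^ 2 := by
    intro i hi
    have hi1 : (i : ℤ) ≤ L := by
      have := Finset.mem_range.1 hi
      omega
    have hi0 : (0 : ℤ) ≤ i := by omega
    have hL0 : (0 : ℤ) ≤ (L : ℤ) := by omega
    have q1 := kc _ (key ((i : ℤ), 0) hi0 hi1 le_rfl hL0).1
    have q2 := kc _ (key ((i : ℤ), (L : ℤ)) hi0 hi1 hL0 le_rfl).1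
    have q3 := kc _ (key (0, (i : ℤ)) le_rfl hL0 hi0 hi1).2
    have q4 := kc _ (key ((L : ℤ), (i : ℤ)) hL0 le_rfl hi0 hi1).2
    rw [← mul_sub, norm_mul, norm_div, Complex.norm_real, Complex.norm_ofNat, Real.norm_eq_abs]
    have e5 : ∀ a1 a2 a3 a4 c1 c2 c3 c4 : ℂ, (a1 + a2 + a3 + a4) - (c1 + c2 + c3 + c4) =
      (a1 - c1) + (a2 - c2) + (a3 - c3) + (a4 - c4) := by intros; ring
    rw [e5]
    refine (mul_le_mul_of_nonneg_left (norm_add₄_le.trans (add_le_add (add_le_add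
      (add_le_add q1 q2) q3) q4)) (by positivity)).trans (le_of_eq ?_)
    ring
  refine (norm_sum_le_of_le _ hterm).trans (le_of_eq ?_)
  rw [Finset.sum_const, Finset.card_range, nsmul_eq_mul]
  field_simp

/-- the limit for general sequences of fields -/
theorem ZC_lim {b : ℝ} (hb : 0 < b) (hf : Continuous fun p : ℝ × ℝ => f p.1 p.2)
    (dP : ∀ x y, HasDerivAt (fun x => P x y) (f x y) x)
    (dQ : ∀ x y, HasDerivAt (fun y => Q x y) (-f x y) y) (z : ℂ) :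
    Tendsto (fun N => ZC N b (fun e => (-Complex.I * z) * tE (α (N + 1)) (β (N + 1)) e) /
      ZC N b 0) atTop (𝓝 (Complex.exp (z ^ 2 * (helicity b / 2 *
        ∫ x in (0 : ℝ)..1, ∫ y in (0 : ℝ)..1, (P x y ^ 2 + Q x y ^ 2) : ℝ)))) := by
  have h1 := (gauge_lim_C hb hP hQ hf dP dQ h (-Complex.I * z)).comp (tendsto_add_atTop_nat 1)
  have h2 := ((bdE_lim hP hQ h b (-Complex.I * z)).comp (tendsto_add_atTop_nat 1)).neg
  have h3 := (Complex.continuous_exp.tendsto _).comp h2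
  have h4 := h1.mul h3
  have e1 : (-Complex.I * z) ^ 2 = -z ^ 2 := by
    rw [mul_pow, neg_sq, Complex.I_sq]
    ring
  rw [e1] at h4
  simp only [neg_zero, Complex.exp_zero, mul_one, neg_mul, neg_neg] at h4
  refine h4.congr fun N => ?_
  simp only [Function.comp]
  rw [gaugeZC_eq, gaugeZC_eq]
  have hz : (fun e : Eb N => (0 : ℂ) * ((tE (α (N + 1)) (β (N + 1)) e : ℝ) : ℂ)) = 0 := by
    funext e
    simp
  rw [hz]
  have hA := Complex.exp_ne_zero (bdE (N + 1) b (α (N + 1)) (β (N + 1)) (-(Complex.I * z)))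
  have hB := Complex.exp_ne_zero (bdE (N + 1) b (α (N + 1)) (β (N + 1)) 0)
  rw [Complex.exp_neg, Complex.exp_sub]
  have e3 : (fun e : Eb N => -Complex.I * z * ((tE (α (N + 1)) (β (N + 1)) e : ℝ) : ℂ)) =
      fun e : Eb N => -(Complex.I * z) * ((tE (α (N + 1)) (β (N + 1)) e : ℝ) : ℂ) := by
    funext e
    ring
  rw [e3]
  field_simp

end

/-- the mean of an exponential of a linear function of the height differences -/
theorem hMean_lin {N : ℕ} {b : ℝ} (hb : 0 ≤ b) (α β : ℤ × ℤ → ℝ) (F : (Fa N → ℤ) → ℝ)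
    (hF : ∀ h : Fa N → ℤ, ∑ e : Eb N, tE α β e * (bcur h e : ℝ) = F h) (z : ℂ) :
    hMean N b (fun h => Complex.exp (z * F h)) =
      ZC N b (fun e => (-Complex.I * z) * tE α β e) / ZC N b 0 := by
  unfold hMean
  have h1 := (ZC_heights (N := N) hb (fun e => (-Complex.I * z) * tE α β e)).tsum_eq
  have h2 := (ZC_heights (N := N) hb 0).tsum_eq
  congr 1
  · rw [← h1]
    refine tsum_congr fun h => ?_
    rw [hWt_eq hb]
    congr 1
    show Complex.exp (z * (F h.1 : ℂ)) = _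
    rw [← hF]
    congr 1
    push_cast
    rw [Finset.mul_sum, Finset.mul_sum]
    refine Finset.sum_congr rfl fun e _ => ?_
    have : Complex.I * (-Complex.I * z * (tE α β e : ℂ) * (bcur h.1 e : ℂ)) =
      (-(Complex.I * Complex.I)) * (z * ((tE α β e : ℂ) * (bcur h.1 e : ℂ))) := by ring
    rw [this, Complex.I_mul_I]
    ring
  · rw [← h2, Complex.ofReal_tsum]
    refine tsum_congr fun h => ?_
    rw [hWt_eq hb]
    simp

lemma dform_eq {N : ℕ} (w : ℝ → ℝ → ℝ) (h : Fa N → ℤ) :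
    ∑ e : Eb N, tE (αf w (N + 1)) (βf w (N + 1)) e * (bcur h e : ℝ) = dform N w h := by
  rw [Fintype.sum_sum_type, Fintype.sum_prod_type, Fintype.sum_prod_type]
  unfold dform
  congr 1
  · refine Finset.sum_congr rfl fun i _ => Finset.sum_congr rfl fun j _ => ?_
    simp only [tE, βf, bcur, blf, brt, ctr, Fin.val_succ, Fin.val_castSucc]
    push_cast
    have e1 : ((i.1 : ℝ) + 1 - 1 / 2) = (i.1 : ℝ) + 1 / 2 := by ring
    rw [e1]
    ring
  · refine Finset.sum_congr rfl fun i _ => Finset.sum_congr rfl fun j _ => ?_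
    simp only [tE, αf, bcur, blf, brt, ctr, Fin.val_succ, Fin.val_castSucc]
    push_cast
    have e1 : ((j.1 : ℝ) + 1 - 1 / 2) = (j.1 : ℝ) + 1 / 2 := by ring
    rw [e1]

/-- the scaling limit -/
theorem heights_lim {w : ℝ → ℝ → ℝ} (hw : ContDiff ℝ 2 fun p : ℝ × ℝ => w p.1 p.2) {b : ℝ}
    (hb : 0 < b) (z : ℂ) :
    Tendsto (fun N => hMean N b (fun h => Complex.exp (z * dform N w h))) atTop
      (𝓝 (Complex.exp (z ^ 2 * (helicity b / 2 *
        ∫ x in (0 : ℝ)..1, ∫ y in (0 : ℝ)..1,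
          (deriv (fun s => w s y) x ^ 2 + deriv (fun s => w x s) y ^ 2) : ℝ)))) := by
  have h1 := ZC_lim (cont_py hw) (cont_px hw).neg (apx_w hw) hb (cont_pxy hw)
    (fun x y => has_pyx hw x y) (fun x y => (has_pxy hw x y).neg) z
  have e2 : ∀ x y : ℝ, py w x y ^ 2 + (-px w x y) ^ 2 = px w x y ^ 2 + py w x y ^ 2 := by
    intro x y; ring
  simp only [e2] at h1
  simp only [deriv_px hw, deriv_py hw]
  refine h1.congr fun N => ?_
  exact (hMean_lin hb.le _ _ _ (fun h => dform_eq w h) z).symm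

end Vale.Agent.P159.R2.H254
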