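import Vale.Agent.P159.R2.H254.Main1

/-!
The Fourier modes of the heights.
-/

open MeasureTheory Filter Topology

namespace Vale.Agent.P159.R2.H254

open Vale.Agent.P159 Vale.Agent.P159.H353 Vale.Agent.P159.H950

/-! ### Summation by parts -/

lemma parts (θ : ℝ) (g : ℕ → ℝ) (n : ℕ) :
    ∑ i ∈ Finset.range n, (Real.cos (θ * ((i : ℝ) + 1 + 1 / 2)) - Real.cos (θ * ((i : ℝ) + 1 / 2))) *
      (g (i + 1) - g i) = 2 * (1 - Real.cos θ) * ∑ i ∈ Finset.range (n + 1),
        g i * Real.cos (θ * ((i : ℝ) + 1 / 2)) +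
      (Real.cos (θ * ((n : ℝ) + 1 + 1 / 2)) - Real.cos (θ * ((n : ℝ) + 1 / 2))) * g n := by
  induction n with
  | zero =>
    simp only [Finset.range_zero, Finset.sum_empty, zero_add, Finset.range_one,
      Finset.sum_singleton, Nat.cast_zero]
    have e1 : θ * (1 + 1 / 2) = θ + θ * (1 / 2) := by ring
    have e2 : θ = θ * (1 / 2) + θ * (1 / 2) := by ring
    have h1 := Real.cos_add θ (θ * (1 / 2))
    have h2 : Real.cos θ = 2 * Real.cos (θ * (1 / 2)) ^ 2 - 1 := by
      conv_lhs => rw [e2]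
      rw [← two_mul, Real.cos_two_mul]
    have h3 : Real.sin θ = 2 * Real.sin (θ * (1 / 2)) * Real.cos (θ * (1 / 2)) := by
      conv_lhs => rw [e2]
      rw [← two_mul, Real.sin_two_mul]
    have h4 := Real.sin_sq_add_cos_sq (θ * (1 / 2))
    have h5 : Real.cos (θ * (1 + 1 / 2)) =
        2 * Real.cos θ * Real.cos (θ * (1 / 2)) - Real.cos (θ * (1 / 2)) := by
      rw [e1, h1, h3, h2]
      have h6 : Real.sin (θ * (1 / 2)) ^ 2 = 1 - Real.cos (θ * (1 / 2)) ^ 2 := by linarith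
      linear_combination (-2 * Real.cos (θ * (1 / 2))) * h6
    rw [h5]
    ring
  | succ n ih =>
    rw [Finset.sum_range_succ, ih, Finset.sum_range_succ _ (n + 1)]
    have h1 : Real.cos (θ * ((n : ℝ) + 1 + 1 + 1 / 2)) + Real.cos (θ * ((n : ℝ) + 1 / 2)) =
        2 * Real.cos θ * Real.cos (θ * ((n : ℝ) + 1 + 1 / 2)) := by
      have e1 : θ * ((n : ℝ) + 1 + 1 + 1 / 2) = θ * ((n : ℝ) + 1 + 1 / 2) + θ := by ring
      have e2 : θ * ((n : ℝ) + 1 / 2) = θ * ((n : ℝ) + 1 + 1 / 2) - θ := by ring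
      rw [e1, e2, Real.cos_add, Real.cos_sub]
      ring
    push_cast
    linear_combination (-(g (n + 1))) * h1

/-- the one-dimensional identity on `N + 1` points -/
lemma parts_fin (N m : ℕ) (g : Fin (N + 1) → ℝ) :
    ∑ i : Fin N, (Real.cos (m * Real.pi * ctr N i.succ) - Real.cos (m * Real.pi * ctr N i.castSucc)) *
      (g i.succ - g i.castSucc) = 2 * (1 - Real.cos (m * Real.pi / (N + 1))) *
        ∑ i : Fin (N + 1), g i * Real.cos (m * Real.pi * ctr N i) := by
  set θ : ℝ := m * Real.pi / (N + 1) with hθ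
  set G : ℕ → ℝ := fun i => if hi : i < N + 1 then g ⟨i, hi⟩ else 0 with hG
  have hN : (0 : ℝ) < (N : ℝ) + 1 := by positivity
  have h := parts θ G N
  have e1 : ∑ i : Fin N, (Real.cos (m * Real.pi * ctr N i.succ) -
      Real.cos (m * Real.pi * ctr N i.castSucc)) * (g i.succ - g i.castSucc) =
      ∑ i ∈ Finset.range N, (Real.cos (θ * ((i : ℝ) + 1 + 1 / 2)) -
        Real.cos (θ * ((i : ℝ) + 1 / 2))) * (G (i + 1) - G i) := by
    rw [← Fin.sum_univ_eq_sum_range (fun i => (Real.cos (θ * ((i : ℝ) + 1 + 1 / 2)) -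
        Real.cos (θ * ((i : ℝ) + 1 / 2))) * (G (i + 1) - G i))]
    refine Finset.sum_congr rfl fun i _ => ?_
    have hi1 : (i : ℕ) < N + 1 := by omega
    have hi2 : (i : ℕ) + 1 < N + 1 := by omega
    have g1 : G ((i : ℕ) + 1) = g i.succ := by simp only [hG, dif_pos hi2]; rfl
    have g2 : G (i : ℕ) = g i.castSucc := by simp only [hG, dif_pos hi1]; rfl
    rw [g1, g2]
    congr 2
    · congr 1
      simp only [ctr, Fin.val_succ, hθ]
      push_cast
      ring
    · congr 1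
      simp only [ctr, Fin.val_castSucc, hθ]
      ring
  have e2 : ∑ i : Fin (N + 1), g i * Real.cos (m * Real.pi * ctr N i) =
      ∑ i ∈ Finset.range (N + 1), G i * Real.cos (θ * ((i : ℝ) + 1 / 2)) := by
    rw [← Fin.sum_univ_eq_sum_range (fun i => G i * Real.cos (θ * ((i : ℝ) + 1 / 2)))]
    refine Finset.sum_congr rfl fun i _ => ?_
    have g1 : G (i : ℕ) = g i := by simp only [hG, dif_pos i.2]
    rw [g1]
    congr 2
    simp only [ctr, hθ]
    ring
  have e3 : Real.cos (θ * ((N : ℝ) + 1 + 1 / 2)) = Real.cos (θ * ((N : ℝ) + 1 / 2)) := by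
    have a1 : θ * ((N : ℝ) + 1 + 1 / 2) = m * Real.pi + θ * (1 / 2) := by
      rw [hθ]; field_simp
    have a2 : θ * ((N : ℝ) + 1 / 2) = m * Real.pi - θ * (1 / 2) := by
      rw [hθ]; field_simp; ring
    rw [a1, a2, Real.cos_add, Real.cos_sub, Real.sin_nat_mul_pi]
    ring
  rw [e1, e2, h, e3]
  ring

/-- the product of two cosines -/
noncomputable def cc (m n : ℕ) (x y : ℝ) : ℝ :=
  Real.cos (m * Real.pi * x) * Real.cos (n * Real.pi * y)

/-- discrete eigenvalue -/
noncomputable def lam (L : ℕ) (m n : ℕ) : ℝ :=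
  2 * (1 - Real.cos (m * Real.pi / L)) + 2 * (1 - Real.cos (n * Real.pi / L))

theorem dform_cc (N m n : ℕ) (h : Fa N → ℤ) :
    dform N (cc m n) h = lam (N + 1) m n * (((N : ℝ) + 1) ^ 2 * fmode N m n h) := by
  have hN : ((N : ℝ) + 1) ^ 2 ≠ 0 := by positivity
  unfold fmode
  rw [mul_div_cancel₀ _ hN]
  unfold dform cc lam
  have e1 : ∑ i : Fin N, ∑ j : Fin (N + 1), (Real.cos (m * Real.pi * ctr N i.succ) *
      Real.cos (n * Real.pi * ctr N j) - Real.cos (m * Real.pi * ctr N i.castSucc) *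
      Real.cos (n * Real.pi * ctr N j)) * ((h (i.succ, j) : ℝ) - h (i.castSucc, j)) =
      2 * (1 - Real.cos (m * Real.pi / ((N + 1 : ℕ) : ℝ))) * ∑ i : Fin (N + 1), ∑ j : Fin (N + 1),
        (h (i, j) : ℝ) * (Real.cos (m * Real.pi * ctr N i) * Real.cos (n * Real.pi * ctr N j)) := by
    have e3 : ∑ i : Fin (N + 1), ∑ j : Fin (N + 1),
        (h (i, j) : ℝ) * (Real.cos (m * Real.pi * ctr N i) * Real.cos (n * Real.pi * ctr N j)) =
        ∑ j : Fin (N + 1), ∑ i : Fin (N + 1),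
        (h (i, j) : ℝ) * (Real.cos (m * Real.pi * ctr N i) * Real.cos (n * Real.pi * ctr N j)) :=
      Finset.sum_comm
    rw [Finset.sum_comm, e3, Finset.mul_sum]
    refine Finset.sum_congr rfl fun j _ => ?_
    have := parts_fin N m (fun i => (h (i, j) : ℝ) * Real.cos (n * Real.pi * ctr N j))
    push_cast
    calc _ = ∑ i : Fin N, (Real.cos (m * Real.pi * ctr N i.succ) -
          Real.cos (m * Real.pi * ctr N i.castSucc)) *
          ((h (i.succ, j) : ℝ) * Real.cos (n * Real.pi * ctr N j) -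
            (h (i.castSucc, j) : ℝ) * Real.cos (n * Real.pi * ctr N j)) :=
          Finset.sum_congr rfl fun i _ => by ring
      _ = _ := by
        rw [this, Finset.mul_sum, Finset.mul_sum]
        exact Finset.sum_congr rfl fun i _ => by ring
  have e2 : ∑ i : Fin (N + 1), ∑ j : Fin N, (Real.cos (m * Real.pi * ctr N i) *
      Real.cos (n * Real.pi * ctr N j.succ) - Real.cos (m * Real.pi * ctr N i) *
      Real.cos (n * Real.pi * ctr N j.castSucc)) * ((h (i, j.succ) : ℝ) - h (i, j.castSucc)) =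
      2 * (1 - Real.cos (n * Real.pi / ((N + 1 : ℕ) : ℝ))) * ∑ i : Fin (N + 1), ∑ j : Fin (N + 1),
        (h (i, j) : ℝ) * (Real.cos (m * Real.pi * ctr N i) * Real.cos (n * Real.pi * ctr N j)) := by
    rw [Finset.mul_sum]
    refine Finset.sum_congr rfl fun i _ => ?_
    have := parts_fin N n (fun j => (h (i, j) : ℝ) * Real.cos (m * Real.pi * ctr N i))
    push_cast
    calc _ = ∑ j : Fin N, (Real.cos (n * Real.pi * ctr N j.succ) -
          Real.cos (n * Real.pi * ctr N j.castSucc)) *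
          ((h (i, j.succ) : ℝ) * Real.cos (m * Real.pi * ctr N i) -
            (h (i, j.castSucc) : ℝ) * Real.cos (m * Real.pi * ctr N i)) :=
          Finset.sum_congr rfl fun j _ => by ring
      _ = _ := by
        rw [this, Finset.mul_sum, Finset.mul_sum]
        exact Finset.sum_congr rfl fun j _ => by ring
  rw [e1, e2]
  push_cast
  ring

/-! ### Limits of the eigenvalues -/

lemma cos_lim (c : ℝ) :
    Tendsto (fun L : ℕ => (L : ℝ) ^ 2 * (2 * (1 - Real.cos (c / L)))) atTop (𝓝 (c ^ 2)) := by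
  have hinv : Tendsto (fun N : ℕ => (N : ℝ)⁻¹) atTop (𝓝 0) := tendsto_inv_atTop_nhds_zero_nat
  have hlim : Tendsto (fun N : ℕ => c / 2 * (N : ℝ)⁻¹) atTop (𝓝 0) := by
    simpa using hinv.const_mul (c / 2)
  have hs : Tendsto (fun N : ℕ => c ^ 2 * Real.sinc (c / 2 * (N : ℝ)⁻¹) ^ 2) atTop
      (𝓝 (c ^ 2 * Real.sinc 0 ^ 2)) :=
    (((Real.continuous_sinc.tendsto 0).comp hlim).pow 2).const_mul (c ^ 2)
  rw [Real.sinc_zero, one_pow, mul_one] at hs
  refine hs.congr' ?_
  filter_upwards [eventually_ge_atTop 1] with L hL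
  have hL0 : (0 : ℝ) < L := by exact_mod_cast hL
  have e1 : c / L = 2 * (c / 2 * (L : ℝ)⁻¹) := by field_simp
  rw [e1, Real.cos_two_mul]
  by_cases hc : c = 0
  · subst hc
    norm_num
  · have h0 : c / 2 * (L : ℝ)⁻¹ ≠ 0 := by positivity
    rw [Real.sinc_of_ne_zero h0]
    have h2 := Real.sin_sq_add_cos_sq (c / 2 * (L : ℝ)⁻¹)
    have h3 : 1 - (2 * Real.cos (c / 2 * (L : ℝ)⁻¹) ^ 2 - 1) =
      2 * Real.sin (c / 2 * (L : ℝ)⁻¹) ^ 2 := by linarith
    rw [h3]
    field_simp

lemma lam_lim (m n : ℕ) : Tendsto (fun L : ℕ => (L : ℝ) ^ 2 * lam L m n) atTop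
    (𝓝 (Real.pi ^ 2 * ((m : ℝ) ^ 2 + (n : ℝ) ^ 2))) := by
  have h := (cos_lim (m * Real.pi)).add (cos_lim (n * Real.pi))
  have e : (m * Real.pi) ^ 2 + (n * Real.pi) ^ 2 = Real.pi ^ 2 * ((m : ℝ) ^ 2 + (n : ℝ) ^ 2) := by
    ring
  rw [e] at h
  refine h.congr fun L => ?_
  unfold lam
  ring

/-! ### Orthogonality -/

lemma int_cos (k : ℤ) :
    ∫ x in (0 : ℝ)..1, Real.cos (k * Real.pi * x) = if k = 0 then 1 else 0 := by
  split_ifs with h
  · subst h
    simp
  · have hk : (k : ℝ) * Real.pi ≠ 0 := mul_ne_zero (by exact_mod_cast h) Real.pi_ne_zero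
    rw [intervalIntegral.integral_comp_mul_left (fun x => Real.cos x) hk, integral_cos]
    simp [Real.sin_int_mul_pi]

lemma int_cos_cos (m m' : ℕ) :
    ∫ x in (0 : ℝ)..1, Real.cos (m * Real.pi * x) * Real.cos (m' * Real.pi * x) =
      if m = m' then cnrm m else 0 := by
  have e : ∀ x : ℝ, Real.cos (m * Real.pi * x) * Real.cos (m' * Real.pi * x) =
      1 / 2 * Real.cos (((m : ℤ) - (m' : ℤ) : ℤ) * Real.pi * x) +
      1 / 2 * Real.cos (((m : ℤ) + (m' : ℤ) : ℤ) * Real.pi * x) := by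
    intro x
    push_cast
    have e1 : ((m : ℝ) - m') * Real.pi * x = m * Real.pi * x - m' * Real.pi * x := by ring
    have e2 : ((m : ℝ) + m') * Real.pi * x = m * Real.pi * x + m' * Real.pi * x := by ring
    rw [e1, e2, Real.cos_add, Real.cos_sub]
    ring
  simp only [e]
  rw [intervalIntegral.integral_add (Continuous.intervalIntegrable (by fun_prop) _ _)
    (Continuous.intervalIntegrable (by fun_prop) _ _), intervalIntegral.integral_const_mul,
    intervalIntegral.integral_const_mul, int_cos, int_cos]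
  unfold cnrm
  by_cases h1 : m = m'
  · subst h1
    by_cases h2 : m = 0
    · subst h2; norm_num
    · have : ¬ ((m : ℤ) + (m : ℤ) = 0) := by omega
      simp [this, h2]
  · have a1 : ¬ ((m : ℤ) - (m' : ℤ) = 0) := by omega
    have a2 : ¬ ((m : ℤ) + (m' : ℤ) = 0) := by omega
    simp [a1, a2, h1]

lemma int_sin_sin (m m' : ℕ) :
    ∫ x in (0 : ℝ)..1, (m * Real.sin (m * Real.pi * x)) * (m' * Real.sin (m' * Real.pi * x)) =
      if m = m' then (m : ℝ) ^ 2 * cnrm m else 0 := by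
  have e : ∀ x : ℝ, (m * Real.sin (m * Real.pi * x)) * (m' * Real.sin (m' * Real.pi * x)) =
      m * m' * (1 / 2) * Real.cos (((m : ℤ) - (m' : ℤ) : ℤ) * Real.pi * x) -
      m * m' * (1 / 2) * Real.cos (((m : ℤ) + (m' : ℤ) : ℤ) * Real.pi * x) := by
    intro x
    push_cast
    have e1 : ((m : ℝ) - m') * Real.pi * x = m * Real.pi * x - m' * Real.pi * x := by ring
    have e2 : ((m : ℝ) + m') * Real.pi * x = m * Real.pi * x + m' * Real.pi * x := by ring
    rw [e1, e2, Real.cos_add, Real.cos_sub]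
    ring
  simp only [e]
  rw [intervalIntegral.integral_sub (Continuous.intervalIntegrable (by fun_prop) _ _)
    (Continuous.intervalIntegrable (by fun_prop) _ _), intervalIntegral.integral_const_mul,
    intervalIntegral.integral_const_mul, int_cos, int_cos]
  unfold cnrm
  by_cases h1 : m = m'
  · subst h1
    by_cases h2 : m = 0
    · subst h2; norm_num
    · have : ¬ ((m : ℤ) + (m : ℤ) = 0) := by omega
      simp [this, h2]
      ring
  · have a1 : ¬ ((m : ℤ) - (m' : ℤ) = 0) := by omega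
    have a2 : ¬ ((m : ℤ) + (m' : ℤ) = 0) := by omega
    simp [a1, a2, h1]

/-- derivative in the second coordinate of `cc` -/
noncomputable def Pk (k : ℕ × ℕ) (x y : ℝ) : ℝ :=
  -Real.pi * (Real.cos (k.1 * Real.pi * x) * (k.2 * Real.sin (k.2 * Real.pi * y)))

/-- minus the derivative in the first coordinate of `cc` -/
noncomputable def Qk (k : ℕ × ℕ) (x y : ℝ) : ℝ :=
  Real.pi * ((k.1 * Real.sin (k.1 * Real.pi * x)) * Real.cos (k.2 * Real.pi * y))

/-- derivative of both -/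
noncomputable def fk (k : ℕ × ℕ) (x y : ℝ) : ℝ :=
  Real.pi ^ 2 * ((k.1 * Real.sin (k.1 * Real.pi * x)) * (k.2 * Real.sin (k.2 * Real.pi * y)))

lemma orth (k l : ℕ × ℕ) :
    ∫ x in (0 : ℝ)..1, ∫ y in (0 : ℝ)..1, (Pk k x y * Pk l x y + Qk k x y * Qk l x y) =
      if k = l then Real.pi ^ 2 * ((k.1 : ℝ) ^ 2 + (k.2 : ℝ) ^ 2) * (cnrm k.1 * cnrm k.2) else 0 := by
  have e : ∀ x : ℝ, ∫ y in (0 : ℝ)..1, (Pk k x y * Pk l x y + Qk k x y * Qk l x y) =
      Real.pi ^ 2 * (Real.cos (k.1 * Real.pi * x) * Real.cos (l.1 * Real.pi * x)) *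
        (if k.2 = l.2 then (k.2 : ℝ) ^ 2 * cnrm k.2 else 0) +
      Real.pi ^ 2 * ((k.1 * Real.sin (k.1 * Real.pi * x)) * (l.1 * Real.sin (l.1 * Real.pi * x))) *
        (if k.2 = l.2 then cnrm k.2 else 0) := by
    intro x
    rw [← int_cos_cos, ← int_sin_sin, ← intervalIntegral.integral_const_mul,
      ← intervalIntegral.integral_const_mul, ← intervalIntegral.integral_add
        (Continuous.intervalIntegrable (by fun_prop) _ _)
        (Continuous.intervalIntegrable (by fun_prop) _ _)]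
    refine intervalIntegral.integral_congr fun y _ => ?_
    simp only [Pk, Qk]
    ring
  simp only [e]
  have e2 : ∀ x : ℝ, Real.pi ^ 2 * (Real.cos (k.1 * Real.pi * x) * Real.cos (l.1 * Real.pi * x)) *
        (if k.2 = l.2 then (k.2 : ℝ) ^ 2 * cnrm k.2 else 0) =
      (Real.pi ^ 2 * (if k.2 = l.2 then (k.2 : ℝ) ^ 2 * cnrm k.2 else 0)) *
        (Real.cos (k.1 * Real.pi * x) * Real.cos (l.1 * Real.pi * x)) := fun x => by ring
  have e3 : ∀ x : ℝ, Real.pi ^ 2 * ((k.1 * Real.sin (k.1 * Real.pi * x)) *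
        (l.1 * Real.sin (l.1 * Real.pi * x))) * (if k.2 = l.2 then cnrm k.2 else 0) =
      (Real.pi ^ 2 * (if k.2 = l.2 then cnrm k.2 else 0)) *
        ((k.1 * Real.sin (k.1 * Real.pi * x)) * (l.1 * Real.sin (l.1 * Real.pi * x))) :=
    fun x => by ring
  simp only [e2, e3]
  rw [intervalIntegral.integral_add (Continuous.intervalIntegrable (by fun_prop) _ _)
    (Continuous.intervalIntegrable (by fun_prop) _ _), intervalIntegral.integral_const_mul,
    intervalIntegral.integral_const_mul, int_cos_cos, int_sin_sin]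
  by_cases h1 : k.1 = l.1
  · by_cases h2 : k.2 = l.2
    · have : k = l := Prod.ext h1 h2
      rw [if_pos h2, if_pos h1, if_pos h2, if_pos h1, if_pos this]
      ring
    · have : k ≠ l := fun h => h2 (by rw [h])
      rw [if_neg h2, if_neg h2, if_neg this]
      ring
  · have : k ≠ l := fun h => h1 (by rw [h])
    rw [if_neg h1, if_neg h1, if_neg this]
    ring

end Vale.Agent.P159.R2.H254
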