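import Vale.Agent.P159.R2.H254.Modes

/-!
Joint limit of the Fourier modes of the heights.
-/

open MeasureTheory Filter Topology

namespace Vale.Agent.P159.R2.H254

open Vale.Agent.P159 Vale.Agent.P159.H353 Vale.Agent.P159.H950

lemma apx_smul {P Q : ℝ → ℝ → ℝ} {α β : ℕ → ℤ × ℤ → ℝ}
    (hP : Continuous fun p : ℝ × ℝ => P p.1 p.2) (hQ : Continuous fun p : ℝ × ℝ => Q p.1 p.2)
    (h : ApxG P Q α β) {c : ℕ → ℝ} {c0 : ℝ} (hc : Tendsto c atTop (𝓝 c0)) :
    ApxG (fun x y => c0 * P x y) (fun x y => c0 * Q x y) (fun L v => c L * α L v)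
      (fun L v => c L * β L v) := by
  intro ε hε
  obtain ⟨M1, hM1⟩ := (sqr_compact 1).exists_bound_of_continuousOn hP.continuousOn
  obtain ⟨M2, hM2⟩ := (sqr_compact 1).exists_bound_of_continuousOn hQ.continuousOn
  obtain ⟨M, hM⟩ : ∃ M, M = |M1| + |M2| + 1 := ⟨_, rfl⟩
  have hM0 : 0 < M := by rw [hM]; positivity
  have hc0 : 0 < |c0| + 1 := by positivity
  have hd : Tendsto (fun L => |c L - c0|) atTop (𝓝 0) := by
    have := (hc.sub_const c0).abs
    simpa using this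
  have ha : Tendsto (fun L => |c L|) atTop (𝓝 |c0|) := hc.abs
  filter_upwards [h (ε / 2 / (|c0| + 1)) (by positivity),
    hd.eventually (ge_mem_nhds (show (0 : ℝ) < ε / 2 / M by positivity)),
    ha.eventually (ge_mem_nhds (show |c0| < |c0| + 1 by linarith)), eventually_ge_atTop 1]
    with L h1 h2 h3 hL v v1 v2 v3 v4
  have hLpos : (0 : ℝ) < L := by exact_mod_cast hL
  obtain ⟨g1, g2⟩ := h1 v v1 v2 v3 v4
  have a0 : ∀ k : ℤ, 0 ≤ k → k ≤ L → |(k : ℝ) / L| ≤ 1 := by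
    intro k h3 h4
    have h3' : (0 : ℝ) ≤ k := by exact_mod_cast h3
    have h4' : (k : ℝ) ≤ L := by exact_mod_cast h4
    rw [abs_of_nonneg (by positivity)]
    exact (div_le_one hLpos).2 h4'
  have hm := mem_sqr.2 ⟨a0 v.1 v1 v2, a0 v.2 v3 v4⟩
  have k1 := hM1 _ hm
  have k2 := hM2 _ hm
  rw [Real.norm_eq_abs] at k1 k2
  simp only at k1 k2
  have key : ∀ r q : ℝ, |L * r - q| ≤ ε / 2 / (|c0| + 1) → |q| ≤ M →
      |L * (c L * r) - c0 * q| ≤ ε := by
    intro r q hr hq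
    have e : (L : ℝ) * (c L * r) - c0 * q = c L * (L * r - q) + (c L - c0) * q := by ring
    rw [e]
    refine (abs_add_le _ _).trans ?_
    rw [abs_mul, abs_mul]
    have t1 : |c L| * |L * r - q| ≤ (|c0| + 1) * (ε / 2 / (|c0| + 1)) :=
      mul_le_mul h3 hr (abs_nonneg _) hc0.le
    have t2 : |c L - c0| * |q| ≤ ε / 2 / M * M := mul_le_mul h2 hq (abs_nonneg _) (by positivity)
    have t3 : (|c0| + 1) * (ε / 2 / (|c0| + 1)) = ε / 2 := by field_simp
    have t4 : ε / 2 / M * M = ε / 2 := by field_simp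
    linarith
  have l1 := le_abs_self M1
  have l2 := le_abs_self M2
  have l3 := abs_nonneg M1
  have l4 := abs_nonneg M2
  exact ⟨key _ _ g1 (by linarith), key _ _ g2 (by linarith)⟩

lemma apx_add {P Q P' Q' : ℝ → ℝ → ℝ} {α β α' β' : ℕ → ℤ × ℤ → ℝ} (h : ApxG P Q α β)
    (h' : ApxG P' Q' α' β') : ApxG (fun x y => P x y + P' x y) (fun x y => Q x y + Q' x y)
      (fun L v => α L v + α' L v) (fun L v => β L v + β' L v) := by
  intro ε hε
  filter_upwards [h (ε / 2) (by positivity), h' (ε / 2) (by positivity)]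
    with L h1 h2 v v1 v2 v3 v4
  obtain ⟨g1, g2⟩ := h1 v v1 v2 v3 v4
  obtain ⟨g3, g4⟩ := h2 v v1 v2 v3 v4
  have key : ∀ a b c d : ℝ, |L * a - b| ≤ ε / 2 → |L * c - d| ≤ ε / 2 →
      |L * (a + c) - (b + d)| ≤ ε := by
    intro a b c d h5 h6
    have e : (L : ℝ) * (a + c) - (b + d) = (L * a - b) + (L * c - d) := by ring
    rw [e]
    exact (abs_add_le _ _).trans (by linarith)
  exact ⟨key _ _ _ _ g1 g3, key _ _ _ _ g2 g4⟩

lemma apx_sum {κ : Type} (K : Finset κ) {P Q : κ → ℝ → ℝ → ℝ} {α β : κ → ℕ → ℤ × ℤ → ℝ}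
    (h : ∀ k, ApxG (P k) (Q k) (α k) (β k)) :
    ApxG (fun x y => ∑ k ∈ K, P k x y) (fun x y => ∑ k ∈ K, Q k x y)
      (fun L v => ∑ k ∈ K, α k L v) (fun L v => ∑ k ∈ K, β k L v) := by
  classical
  induction K using Finset.induction_on with
  | empty =>
    intro ε hε
    refine Eventually.of_forall fun L v _ _ _ _ => ?_
    simp [hε.le]
  | insert a s ha ih =>
    simp only [Finset.sum_insert ha]
    exact apx_add (h a) ih

lemma cc_smooth (m n : ℕ) : ContDiff ℝ 2 fun p : ℝ × ℝ => cc m n p.1 p.2 := by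
  unfold cc
  fun_prop

lemma py_cc (k : ℕ × ℕ) (x y : ℝ) : py (cc k.1 k.2) x y = Pk k x y := by
  rw [← deriv_py (cc_smooth k.1 k.2)]
  unfold cc Pk
  have h1 : HasDerivAt (fun s => (k.2 : ℝ) * Real.pi * s) (k.2 * Real.pi) y := by
    simpa using (hasDerivAt_id y).const_mul ((k.2 : ℝ) * Real.pi)
  have h2 := (h1.cos).const_mul (Real.cos (k.1 * Real.pi * x))
  rw [h2.deriv]
  ring

lemma px_cc (k : ℕ × ℕ) (x y : ℝ) : -px (cc k.1 k.2) x y = Qk k x y := by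
  rw [← deriv_px (cc_smooth k.1 k.2)]
  unfold cc Qk
  have h1 : HasDerivAt (fun s => (k.1 : ℝ) * Real.pi * s) (k.1 * Real.pi) x := by
    simpa using (hasDerivAt_id x).const_mul ((k.1 : ℝ) * Real.pi)
  have h2 := (h1.cos).mul_const (Real.cos (k.2 * Real.pi * y))
  rw [h2.deriv]
  ring

lemma apx_cc (k : ℕ × ℕ) : ApxG (Pk k) (Qk k) (αf (cc k.1 k.2)) (βf (cc k.1 k.2)) := by
  have h := apx_w (cc_smooth k.1 k.2)
  simp only [py_cc, px_cc] at h
  exact h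

lemma cont_Pk (k : ℕ × ℕ) : Continuous fun p : ℝ × ℝ => Pk k p.1 p.2 := by
  unfold Pk; fun_prop

lemma cont_Qk (k : ℕ × ℕ) : Continuous fun p : ℝ × ℝ => Qk k p.1 p.2 := by
  unfold Qk; fun_prop

lemma cont_fk (k : ℕ × ℕ) : Continuous fun p : ℝ × ℝ => fk k p.1 p.2 := by
  unfold fk; fun_prop

lemma dPk (k : ℕ × ℕ) (x y : ℝ) : HasDerivAt (fun x => Pk k x y) (fk k x y) x := by
  unfold Pk fk
  have h1 : HasDerivAt (fun s => (k.1 : ℝ) * Real.pi * s) (k.1 * Real.pi) x := by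
    simpa using (hasDerivAt_id x).const_mul ((k.1 : ℝ) * Real.pi)
  refine (((h1.cos).mul_const (k.2 * Real.sin (k.2 * Real.pi * y))).const_mul
    (-Real.pi)).congr_deriv ?_
  ring

lemma dQk (k : ℕ × ℕ) (x y : ℝ) : HasDerivAt (fun y => Qk k x y) (-fk k x y) y := by
  unfold Qk fk
  have h1 : HasDerivAt (fun s => (k.2 : ℝ) * Real.pi * s) (k.2 * Real.pi) y := by
    simpa using (hasDerivAt_id y).const_mul ((k.2 : ℝ) * Real.pi)
  refine (((h1.cos).const_mul (k.1 * Real.sin (k.1 * Real.pi * x))).const_mul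
    Real.pi).congr_deriv ?_
  ring

/-- density of the mixed energy -/
noncomputable def Gk (c : ℕ × ℕ → ℝ) (k l : ℕ × ℕ) (x y : ℝ) : ℝ :=
  c k * c l * (Pk k x y * Pk l x y + Qk k x y * Qk l x y)

lemma cont_Gk (c : ℕ × ℕ → ℝ) (k l : ℕ × ℕ) : Continuous fun p : ℝ × ℝ => Gk c k l p.1 p.2 := by
  unfold Gk Pk Qk; fun_prop

lemma cont_Gky (c : ℕ × ℕ → ℝ) (k l : ℕ × ℕ) (x : ℝ) : Continuous fun y : ℝ => Gk c k l x y := by
  unfold Gk Pk Qk; fun_prop

lemma int_Gk (c : ℕ × ℕ → ℝ) (k l : ℕ × ℕ) :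
    ∫ x in (0 : ℝ)..1, ∫ y in (0 : ℝ)..1, Gk c k l x y =
      if k = l then c k ^ 2 * (Real.pi ^ 2 * ((k.1 : ℝ) ^ 2 + (k.2 : ℝ) ^ 2) *
        (cnrm k.1 * cnrm k.2)) else 0 := by
  unfold Gk
  simp only [intervalIntegral.integral_const_mul]
  rw [orth]
  split_ifs with h
  · subst h; ring
  · ring

/-- energy of a combination of modes -/
lemma energy_modes (K : Finset (ℕ × ℕ)) (c : ℕ × ℕ → ℝ) :
    ∫ x in (0 : ℝ)..1, ∫ y in (0 : ℝ)..1, ((∑ k ∈ K, c k * Pk k x y) ^ 2 +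
      (∑ k ∈ K, c k * Qk k x y) ^ 2) =
      ∑ k ∈ K, c k ^ 2 * (Real.pi ^ 2 * ((k.1 : ℝ) ^ 2 + (k.2 : ℝ) ^ 2) *
        (cnrm k.1 * cnrm k.2)) := by
  have e : ∀ x y : ℝ, (∑ k ∈ K, c k * Pk k x y) ^ 2 + (∑ k ∈ K, c k * Qk k x y) ^ 2 =
      ∑ k ∈ K, ∑ l ∈ K, Gk c k l x y := by
    intro x y
    rw [pow_two (∑ k ∈ K, c k * Pk k x y), pow_two (∑ k ∈ K, c k * Qk k x y),
      Finset.sum_mul_sum, Finset.sum_mul_sum, ← Finset.sum_add_distrib]
    refine Finset.sum_congr rfl fun k _ => ?_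
    rw [← Finset.sum_add_distrib]
    refine Finset.sum_congr rfl fun l _ => ?_
    unfold Gk
    ring
  simp only [e]
  have e1 : ∀ x : ℝ, ∫ y in (0 : ℝ)..1, ∑ k ∈ K, ∑ l ∈ K, Gk c k l x y =
      ∑ k ∈ K, ∑ l ∈ K, ∫ y in (0 : ℝ)..1, Gk c k l x y := by
    intro x
    rw [intervalIntegral.integral_finsetSum fun k _ =>
      (continuous_finsetSum _ fun l _ => cont_Gky c k l x).intervalIntegrable _ _]
    refine Finset.sum_congr rfl fun k _ => ?_
    rw [intervalIntegral.integral_finsetSum fun l _ => (cont_Gky c k l x).intervalIntegrable _ _]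
  simp only [e1]
  have hI : ∀ k l : ℕ × ℕ, Continuous fun x : ℝ => ∫ y in (0 : ℝ)..1, Gk c k l x y := fun k l =>
    intervalIntegral.continuous_parametric_intervalIntegral_of_continuous' (cont_Gk c k l) 0 1
  rw [intervalIntegral.integral_finsetSum fun k _ =>
    (continuous_finsetSum _ fun l _ => hI k l).intervalIntegrable _ _]
  refine Finset.sum_congr rfl fun k hk => ?_
  rw [intervalIntegral.integral_finsetSum fun l _ => (hI k l).intervalIntegrable _ _]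
  rw [Finset.sum_congr rfl (fun l _ => int_Gk c k l), Finset.sum_ite_eq, if_pos hk]

/-- the joint limit of the modes -/
theorem modes_lim {b : ℝ} (hb : 0 < b) (K : Finset (ℕ × ℕ)) (hK : (0, 0) ∉ K) (a : ℕ × ℕ → ℝ)
    (z : ℂ) :
    Tendsto (fun N => hMean N b (fun h =>
      Complex.exp (z * ((∑ k ∈ K, a k * fmode N k.1 k.2 h : ℝ) : ℂ)))) atTop
      (𝓝 (Complex.exp (z ^ 2 / 2 * ((∑ k ∈ K, a k ^ 2 * (helicity b * (cnrm k.1 * cnrm k.2) /
        (Real.pi ^ 2 * ((k.1 : ℝ) ^ 2 + (k.2 : ℝ) ^ 2))) : ℝ) : ℂ)))) := by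
  have hpos : ∀ k ∈ K, 0 < Real.pi ^ 2 * ((k.1 : ℝ) ^ 2 + (k.2 : ℝ) ^ 2) := by
    intro k hk
    have h1 : k.1 ≠ 0 ∨ k.2 ≠ 0 := by
      by_contra hcon
      push Not at hcon
      exact hK ((Prod.ext hcon.1 hcon.2 : k = (0, 0)) ▸ hk)
    have h2 : 0 < (k.1 : ℝ) ^ 2 + (k.2 : ℝ) ^ 2 := by
      rcases h1 with h | h
      · have : (k.1 : ℝ) ≠ 0 := by exact_mod_cast h
        positivity
      · have : (k.2 : ℝ) ≠ 0 := by exact_mod_cast h
        positivity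
    have := Real.pi_pos
    positivity
  set c0 : ℕ × ℕ → ℝ := fun k => if k ∈ K then
    a k / (Real.pi ^ 2 * ((k.1 : ℝ) ^ 2 + (k.2 : ℝ) ^ 2)) else 0 with hc0
  set cL : ℕ × ℕ → ℕ → ℝ := fun k L => if k ∈ K then a k / ((L : ℝ) ^ 2 * lam L k.1 k.2) else 0
    with hcL
  have hlim : ∀ k, Tendsto (cL k) atTop (𝓝 (c0 k)) := by
    intro k
    simp only [hcL, hc0]
    by_cases hk : k ∈ K
    · simp only [hk, if_true]
      exact tendsto_const_nhds.div (lam_lim k.1 k.2) (hpos k hk).ne'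
    · simp only [hk, if_false]
      exact tendsto_const_nhds
  have hA := apx_sum K (fun k => apx_smul (cont_Pk k) (cont_Qk k) (apx_cc k) (hlim k))
  have hlimZ := ZC_lim
    (P := fun x y => ∑ k ∈ K, c0 k * Pk k x y) (Q := fun x y => ∑ k ∈ K, c0 k * Qk k x y)
    (f := fun x y => ∑ k ∈ K, c0 k * fk k x y)
    (continuous_finsetSum _ fun k _ => continuous_const.mul (cont_Pk k))
    (continuous_finsetSum _ fun k _ => continuous_const.mul (cont_Qk k)) hA hb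
    (continuous_finsetSum _ fun k _ => continuous_const.mul (cont_fk k))
    (fun x y => HasDerivAt.fun_sum fun k _ => (dPk k x y).const_mul (c0 k))
    (fun x y => by
      have := HasDerivAt.fun_sum (u := K) (A := fun k y => c0 k * Qk k x y)
        (A' := fun k => c0 k * -fk k x y) (x := y) fun k _ => (dQk k x y).const_mul (c0 k)
      refine this.congr_deriv ?_
      rw [← Finset.sum_neg_distrib]
      exact Finset.sum_congr rfl fun k _ => by ring) z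
  rw [energy_modes] at hlimZ
  have e1 : ∑ k ∈ K, c0 k ^ 2 * (Real.pi ^ 2 * ((k.1 : ℝ) ^ 2 + (k.2 : ℝ) ^ 2) *
        (cnrm k.1 * cnrm k.2)) = ∑ k ∈ K, a k ^ 2 * (cnrm k.1 * cnrm k.2 /
        (Real.pi ^ 2 * ((k.1 : ℝ) ^ 2 + (k.2 : ℝ) ^ 2))) := by
    refine Finset.sum_congr rfl fun k hk => ?_
    have h1 := (hpos k hk).ne'
    simp only [hc0, hk, if_true]
    field_simp
  rw [e1] at hlimZ
  have e2 : z ^ 2 * ((helicity b / 2 * ∑ k ∈ K, a k ^ 2 * (cnrm k.1 * cnrm k.2 /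
        (Real.pi ^ 2 * ((k.1 : ℝ) ^ 2 + (k.2 : ℝ) ^ 2))) : ℝ) : ℂ) =
      z ^ 2 / 2 * ((∑ k ∈ K, a k ^ 2 * (helicity b * (cnrm k.1 * cnrm k.2) /
        (Real.pi ^ 2 * ((k.1 : ℝ) ^ 2 + (k.2 : ℝ) ^ 2))) : ℝ) : ℂ) := by
    have : ∑ k ∈ K, a k ^ 2 * (helicity b * (cnrm k.1 * cnrm k.2) /
        (Real.pi ^ 2 * ((k.1 : ℝ) ^ 2 + (k.2 : ℝ) ^ 2))) = helicity b * ∑ k ∈ K,
        a k ^ 2 * (cnrm k.1 * cnrm k.2 /
        (Real.pi ^ 2 * ((k.1 : ℝ) ^ 2 + (k.2 : ℝ) ^ 2))) := by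
      rw [Finset.mul_sum]
      exact Finset.sum_congr rfl fun k _ => by ring
    rw [this]
    push_cast
    ring
  rw [e2] at hlimZ
  refine hlimZ.congr' ?_
  have hne : ∀ᶠ N : ℕ in atTop, ∀ k ∈ K, lam (N + 1) k.1 k.2 ≠ 0 := by
    rw [Filter.eventually_all_finset]
    intro k hk
    have h1 := ((lam_lim k.1 k.2).comp (tendsto_add_atTop_nat 1)).eventually_ne (hpos k hk).ne'
    filter_upwards [h1] with N hN h0
    simp only [Function.comp] at hN
    rw [h0, mul_zero] at hN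
    exact hN rfl
  filter_upwards [hne] with N hN
  refine (hMean_lin hb.le _ _ _ (fun h => ?_) z).symm
  have hd : ∀ k ∈ K, a k * fmode N k.1 k.2 h = cL k (N + 1) *
      ∑ e : Eb N, tE (αf (cc k.1 k.2) (N + 1)) (βf (cc k.1 k.2) (N + 1)) e * (bcur h e : ℝ) := by
    intro k hk
    rw [dform_eq, dform_cc]
    simp only [hcL, hk, if_true]
    have h1 := hN k hk
    push_cast
    field_simp
  rw [Finset.sum_congr rfl hd]
  simp only [Finset.mul_sum]
  rw [Finset.sum_comm]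
  refine Finset.sum_congr rfl fun e _ => ?_
  rw [← Finset.sum_congr rfl (fun k (_ : k ∈ K) =>
    (mul_assoc (cL k (N + 1)) (tE (αf (cc k.1 k.2) (N + 1)) (βf (cc k.1 k.2) (N + 1)) e)
      (bcur h e : ℝ))), ← Finset.sum_mul]
  congr 1
  rcases e with p | p
  · simp only [tE]
  · simp only [tE]

end Vale.Agent.P159.R2.H254
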